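import Mathlib

/-!
# Averaging operators of equivalence relations on a finite type (helper26, S0453 / WP-A)

For a setoid `r` on a finite type `Ω` (decidable relation), `avg r f x` is the average of
`f : Ω → ℝ` over the `r`-class of `x`.  With the counting inner product `∑ x, f x * g x`
these are symmetric idempotents; for a coarser relation `r'` one has
`avg r' (avg r f) = avg r (avg r' f) = avg r' f`.
-/

set_option autoImplicit false

namespace Crest.Agent.Helper26.SW

open Finset

variable {Ω : Type*} [Fintype Ω]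

/-- The class of `x` as a finset. -/
def cls (r : Setoid Ω) [DecidableRel r.r] (x : Ω) : Finset Ω := univ.filter (fun y => r.r x y)

section

variable (r : Setoid Ω) [DecidableRel r.r]

@[simp] theorem mem_cls {x y : Ω} : y ∈ cls r x ↔ r.r x y := by
  simp [cls]

theorem mem_cls_self (x : Ω) : x ∈ cls r x := (mem_cls r).mpr (r.refl x)

theorem cls_eq_of_rel {x y : Ω} (h : r.r x y) : cls r x = cls r y := by
  ext z
  rw [mem_cls, mem_cls]
  exact ⟨fun hz => r.trans (r.symm h) hz, fun hz => r.trans h hz⟩

theorem card_cls_pos (x : Ω) : 0 < (cls r x).card := Finset.card_pos.mpr ⟨x, mem_cls_self r x⟩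

theorem card_cls_ne_zero (x : Ω) : ((cls r x).card : ℝ) ≠ 0 := by
  have := card_cls_pos r x
  positivity

/-- Average of `f` over the `r`-class of `x`. -/
noncomputable def avg (f : Ω → ℝ) (x : Ω) : ℝ := (∑ y ∈ cls r x, f y) / (cls r x).card

theorem avg_apply (f : Ω → ℝ) (x : Ω) : avg r f x = (∑ y ∈ cls r x, f y) / (cls r x).card := rfl

theorem avg_eq_of_rel (f : Ω → ℝ) {x y : Ω} (h : r.r x y) : avg r f x = avg r f y := by
  rw [avg_apply, avg_apply, cls_eq_of_rel r h]

/-- A function that is constant on classes is fixed by `avg`. -/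
theorem avg_eq_self_of_const {f : Ω → ℝ} (hf : ∀ x y, r.r x y → f x = f y) : avg r f = f := by
  funext x
  rw [avg_apply]
  have h1 : ∑ y ∈ cls r x, f y = ∑ _y ∈ cls r x, f x :=
    Finset.sum_congr rfl (fun y hy => (hf x y ((mem_cls r).mp hy)).symm)
  rw [h1, Finset.sum_const, nsmul_eq_mul]
  field_simp [card_cls_ne_zero r x]

theorem avg_avg (f : Ω → ℝ) : avg r (avg r f) = avg r f :=
  avg_eq_self_of_const r (fun _ _ h => avg_eq_of_rel r f h)

theorem avg_add (f g : Ω → ℝ) : avg r (f + g) = avg r f + avg r g := by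
  funext x
  simp only [avg_apply, Pi.add_apply, Finset.sum_add_distrib, add_div]

theorem avg_smul (c : ℝ) (f : Ω → ℝ) : avg r (c • f) = c • avg r f := by
  funext x
  simp only [avg_apply, Pi.smul_apply, smul_eq_mul, ← Finset.mul_sum, mul_div_assoc]

/-- `avg` as a linear map. -/
noncomputable def avgₗ : (Ω → ℝ) →ₗ[ℝ] (Ω → ℝ) where
  toFun := avg r
  map_add' := avg_add r
  map_smul' := fun c f => by simpa using avg_smul r c f

@[simp] theorem avgₗ_apply (f : Ω → ℝ) : avgₗ r f = avg r f := rfl

/-- Symmetry of `avg` for the counting inner product. -/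
theorem sum_avg_mul (f g : Ω → ℝ) : ∑ x, avg r f x * g x = ∑ x, f x * avg r g x := by
  classical
  have h1 : ∑ x, avg r f x * g x
      = ∑ x, ∑ y, if r.r x y then f y * g x / (cls r x).card else 0 := by
    refine Finset.sum_congr rfl (fun x _ => ?_)
    rw [avg_apply, div_mul_eq_mul_div, Finset.sum_mul, Finset.sum_div]
    unfold cls
    rw [Finset.sum_filter]
  have h2 : ∑ x, f x * avg r g x
      = ∑ x, ∑ y, if r.r x y then f x * g y / (cls r x).card else 0 := by
    refine Finset.sum_congr rfl (fun x _ => ?_)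
    rw [avg_apply, mul_div_assoc', Finset.mul_sum, Finset.sum_div]
    unfold cls
    rw [Finset.sum_filter]
  rw [h1, h2, Finset.sum_comm]
  refine Finset.sum_congr rfl (fun x _ => Finset.sum_congr rfl (fun y _ => ?_))
  by_cases h : r.r x y
  · rw [if_pos h, if_pos (r.symm h), cls_eq_of_rel r h]
  · rw [if_neg h, if_neg (fun h' => h (r.symm h'))]

/-- `⟨f, f - avg f⟩ = ‖f - avg f‖²`. -/
theorem sum_mul_sub_avg (f : Ω → ℝ) :
    ∑ x, f x * (f x - avg r f x) = ∑ x, (f x - avg r f x) ^ 2 := by
  have h1 : ∑ x, avg r f x * (f x - avg r f x) = 0 := by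
    have e1 : ∑ x, avg r f x * (f x - avg r f x)
        = ∑ x, avg r f x * f x - ∑ x, avg r f x * avg r f x := by
      rw [← Finset.sum_sub_distrib]
      exact Finset.sum_congr rfl (fun x _ => by ring)
    have e2 : ∑ x, avg r f x * avg r f x = ∑ x, f x * avg r (avg r f) x :=
      sum_avg_mul r f (avg r f)
    rw [e1, e2, avg_avg, sum_avg_mul r f f]
    have : ∑ x, f x * avg r f x = ∑ x, avg r f x * f x :=
      Finset.sum_congr rfl (fun x _ => mul_comm _ _)
    rw [avg_avg] at e2
    linarith [sum_avg_mul r f f]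
  have h2 : ∑ x, (f x - avg r f x) ^ 2
      = ∑ x, f x * (f x - avg r f x) - ∑ x, avg r f x * (f x - avg r f x) := by
    rw [← Finset.sum_sub_distrib]
    exact Finset.sum_congr rfl (fun x _ => by ring)
  rw [h2, h1, sub_zero]

/-- The sum of `avg f` equals the sum of `f`. -/
theorem sum_avg (f : Ω → ℝ) : ∑ x, avg r f x = ∑ x, f x := by
  have h := sum_avg_mul r f (fun _ => 1)
  have h1 : avg r (fun _ : Ω => (1 : ℝ)) = fun _ => 1 :=
    avg_eq_self_of_const r (fun _ _ _ => rfl)
  rw [h1] at h
  simpa using h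

end

section Coarser

variable (r r' : Setoid Ω) [DecidableRel r.r] [DecidableRel r'.r]

/-- If `r'` is coarser than `r`, then `avg r (avg r' f) = avg r' f`. -/
theorem avg_avg_of_le (h : ∀ x y, r.r x y → r'.r x y) (f : Ω → ℝ) :
    avg r (avg r' f) = avg r' f :=
  avg_eq_self_of_const r (fun _ _ hxy => avg_eq_of_rel r' f (h _ _ hxy))

/-- If `r'` is coarser than `r`, then `avg r' (avg r f) = avg r' f`. -/
theorem avg_avg_of_le' (h : ∀ x y, r.r x y → r'.r x y) (f : Ω → ℝ) :
    avg r' (avg r f) = avg r' f := by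
  classical
  -- test against indicator functions, using symmetry
  funext z
  have key : ∀ g : Ω → ℝ, ∑ x, avg r' (avg r f) x * g x = ∑ x, avg r' f x * g x := by
    intro g
    rw [sum_avg_mul r' (avg r f) g, sum_avg_mul r f (avg r' g), avg_avg_of_le r r' h g,
      ← sum_avg_mul r' f g]
  have := key (fun x => if x = z then 1 else 0)
  simpa using this

end Coarser

end Crest.Agent.Helper26.SW
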