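import Mathlib

/-!
# A spectral-gap lemma without the spectral theorem (helper26, for S0453 / WP-A)

If `T` is a symmetric positive semidefinite operator on a finite-dimensional real inner product
space with `⟪T f, f⟫ ≤ ‖T f‖²` for all `f` (i.e. `T² ≥ T`), then `‖f‖² ≤ ⟪T f, f⟫` for every `f`
orthogonal to the kernel of `T` (i.e. the nonzero spectrum of `T` lies in `[1, ∞)`).

Also a version for operators on functions `Ω → ℝ` on a finite type with the counting inner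
product `∑ x, f x * g x`.
-/

set_option autoImplicit false

namespace Crest.Agent.Helper26.SW

open scoped InnerProductSpace

section Abstract

variable {E : Type*} [NormedAddCommGroup E] [InnerProductSpace ℝ E]

/-- Cauchy–Schwarz for the positive semidefinite form `(u, w) ↦ ⟪T u, w⟫`. -/
theorem inner_sq_le_of_psd (T : E →ₗ[ℝ] E) (hT : T.IsSymmetric)
    (hpos : ∀ f : E, 0 ≤ ⟪T f, f⟫_ℝ) (u w : E) :
    ⟪T u, w⟫_ℝ ^ 2 ≤ ⟪T u, u⟫_ℝ * ⟪T w, w⟫_ℝ := by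
  have hsym : ⟪T w, u⟫_ℝ = ⟪T u, w⟫_ℝ := by
    rw [hT w u, real_inner_comm]
  have key : ∀ t : ℝ, 0 ≤ ⟪T w, w⟫_ℝ * (t * t) + 2 * ⟪T u, w⟫_ℝ * t + ⟪T u, u⟫_ℝ := by
    intro t
    have h := hpos (u + t • w)
    have e : ⟪T (u + t • w), u + t • w⟫_ℝ
        = ⟪T w, w⟫_ℝ * (t * t) + 2 * ⟪T u, w⟫_ℝ * t + ⟪T u, u⟫_ℝ := by
      simp only [map_add, map_smul, inner_add_left, inner_add_right, inner_smul_left,
        inner_smul_right, hsym, RCLike.conj_to_real]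
      ring
    rw [e] at h
    exact h
  have hd := discrim_le_zero key
  unfold discrim at hd
  nlinarith [hd]

/-- **Spectral gap from `T² ≥ T`.** -/
theorem norm_sq_le_inner_of_sq_ge [FiniteDimensional ℝ E] (T : E →ₗ[ℝ] E) (hT : T.IsSymmetric)
    (hpos : ∀ f : E, 0 ≤ ⟪T f, f⟫_ℝ) (hsq : ∀ f : E, ⟪T f, f⟫_ℝ ≤ ‖T f‖ ^ 2)
    (f : E) (hf : f ∈ (LinearMap.ker T)ᗮ) : ‖f‖ ^ 2 ≤ ⟪T f, f⟫_ℝ := by
  -- `(ker T)ᗮ = range T`
  have hrange : (LinearMap.range T)ᗮ = LinearMap.ker T := by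
    ext x
    rw [Submodule.mem_orthogonal, LinearMap.mem_ker]
    constructor
    · intro h
      have h1 : ⟪T x, T x⟫_ℝ = 0 := by
        rw [hT x (T x)]
        rw [real_inner_comm]
        exact h (T (T x)) ⟨T x, rfl⟩
      exact inner_self_eq_zero.mp h1
    · rintro hx _ ⟨y, rfl⟩
      rw [hT y x, hx, inner_zero_right]
  have hf' : f ∈ LinearMap.range T := by
    have : (LinearMap.ker T)ᗮ = LinearMap.range T := by
      rw [← hrange, Submodule.orthogonal_orthogonal]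
    rw [← this]; exact hf
  obtain ⟨h, rfl⟩ := hf'
  -- now `f = T h`
  by_cases h0 : T h = 0
  · simp [h0]
  have hnorm : 0 < ‖T h‖ ^ 2 := by positivity
  have hcs := inner_sq_le_of_psd T hT hpos h (T h)
  have e1 : ⟪T h, T h⟫_ℝ = ‖T h‖ ^ 2 := real_inner_self_eq_norm_sq (T h)
  rw [e1] at hcs
  have h2 := hsq h
  have h3 := hpos (T h)
  -- ‖T h‖⁴ ≤ ⟪T h, h⟫ * ⟪T (T h), T h⟫ ≤ ‖T h‖² * ⟪T (T h), T h⟫
  have h4 : (‖T h‖ ^ 2) ^ 2 ≤ ‖T h‖ ^ 2 * ⟪T (T h), T h⟫_ℝ :=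
    hcs.trans (mul_le_mul_of_nonneg_right h2 h3)
  have h5 : ‖T h‖ ^ 2 * ‖T h‖ ^ 2 ≤ ‖T h‖ ^ 2 * ⟪T (T h), T h⟫_ℝ := by
    rw [← sq]; exact h4
  exact le_of_mul_le_mul_left h5 hnorm

end Abstract

section Functions

variable {Ω : Type*} [Fintype Ω]

/-- **Spectral gap from `T² ≥ T`, for operators on functions on a finite type**, with the
counting inner product `∑ x, f x * g x`.  If `T` is symmetric, positive semidefinite and
`⟨f, T f⟩ ≤ ⟨T f, T f⟩` for all `f`, then `⟨f, f⟩ ≤ ⟨f, T f⟩` for every `f` orthogonal to the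
kernel of `T`. -/
theorem sum_sq_le_of_sq_ge (T : (Ω → ℝ) →ₗ[ℝ] (Ω → ℝ))
    (hsymm : ∀ f g : Ω → ℝ, ∑ x, T f x * g x = ∑ x, f x * T g x)
    (hpos : ∀ f : Ω → ℝ, 0 ≤ ∑ x, f x * T f x)
    (hsq : ∀ f : Ω → ℝ, ∑ x, f x * T f x ≤ ∑ x, T f x * T f x)
    (f : Ω → ℝ) (hf : ∀ g : Ω → ℝ, T g = 0 → ∑ x, f x * g x = 0) :
    ∑ x, f x * f x ≤ ∑ x, f x * T f x := by
  classical
  -- transport to `EuclideanSpace ℝ Ω`
  let e : EuclideanSpace ℝ Ω ≃ₗ[ℝ] (Ω → ℝ) := (WithLp.linearEquiv 2 ℝ (Ω → ℝ))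
  let T' : EuclideanSpace ℝ Ω →ₗ[ℝ] EuclideanSpace ℝ Ω := e.symm.toLinearMap ∘ₗ T ∘ₗ e.toLinearMap
  have hinner : ∀ u w : EuclideanSpace ℝ Ω, ⟪u, w⟫_ℝ = ∑ x, e u x * e w x := by
    intro u w
    rw [EuclideanSpace.inner_eq_star_dotProduct]
    simp only [dotProduct, star_trivial]
    refine Finset.sum_congr rfl (fun x _ => ?_)
    rw [mul_comm]; rfl
  have hT'e : ∀ u : EuclideanSpace ℝ Ω, e (T' u) = T (e u) := by
    intro u
    simp [T']
  have hT' : T'.IsSymmetric := by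
    intro u w
    rw [hinner, hinner, hT'e, hT'e]
    exact hsymm (e u) (e w)
  have hpos' : ∀ u : EuclideanSpace ℝ Ω, 0 ≤ ⟪T' u, u⟫_ℝ := by
    intro u
    rw [hinner, hT'e]
    have := hpos (e u)
    simpa [mul_comm] using this
  have hsq' : ∀ u : EuclideanSpace ℝ Ω, ⟪T' u, u⟫_ℝ ≤ ‖T' u‖ ^ 2 := by
    intro u
    rw [← real_inner_self_eq_norm_sq, hinner, hinner, hT'e]
    have := hsq (e u)
    simpa [mul_comm] using this
  have hmem : e.symm f ∈ (LinearMap.ker T')ᗮ := by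
    rw [Submodule.mem_orthogonal]
    intro g hg
    rw [LinearMap.mem_ker] at hg
    have hg' : T (e g) = 0 := by
      rw [← hT'e, hg]; simp
    rw [hinner]
    have := hf (e g) hg'
    simpa [mul_comm] using this
  have key := norm_sq_le_inner_of_sq_ge T' hT' hpos' hsq' (e.symm f) hmem
  rw [← real_inner_self_eq_norm_sq, hinner, hinner, hT'e] at key
  simpa [mul_comm] using key

end Functions

end Crest.Agent.Helper26.SW
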