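import Mathlib
import Crest.Agent.Helper26.SW.SpectralGap

/-!
# Abstract Caputo-type assembly (helper26, for S0453 / WP-A)

`R b` (`b` ranging over a finite type of "pairs") are symmetric idempotent operators on a real
inner product space, `X = ∑ b, R b`.  Every two distinct pairs are either "disjoint" (then no
"triple" contains both) or lie in exactly one common "triple".  Then

  `‖X f‖² - ⟪X f, f⟫ = ∑_T (‖A_T f‖² - ⟪A_T f, f⟫) + ∑_{b ≠ b' disjoint} ⟪R b f, R b' f⟫`,

with `A_T = ∑_{b ∈ T} R b`.  Consequently, if every `A_T` satisfies `⟪A_T f, f⟫ ≤ ‖A_T f‖²`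
(three-body bound) and the disjoint sum is nonnegative, then `⟪X f, f⟫ ≤ ‖X f‖²`, and by
`norm_sq_le_inner_of_sq_ge` the operator `X` has gap `1` on `(ker X)ᗮ`.
-/

set_option autoImplicit false

namespace Crest.Agent.Helper26.SW

open scoped InnerProductSpace
open Finset

section Abstract

variable {E : Type*} [NormedAddCommGroup E] [InnerProductSpace ℝ E]

/-- If `A` is symmetric, `Π` a symmetric idempotent with `Π ∘ A = A`, and `Π ≤ A` as quadratic
forms, then `A ≤ A²` as quadratic forms. -/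
theorem inner_le_norm_sq_of_proj_le (A P : E →ₗ[ℝ] E) (hP : P.IsSymmetric)
    (hPA : ∀ f : E, P (A f) = A f) (hle : ∀ f : E, ⟪P f, f⟫_ℝ ≤ ⟪A f, f⟫_ℝ)
    (hidem : ∀ f : E, P (P f) = P f) (f : E) :
    ⟪A f, f⟫_ℝ ≤ ‖A f‖ ^ 2 := by
  have h1 : 0 ≤ ‖A f - P f‖ ^ 2 := sq_nonneg _
  have e1 : ‖A f - P f‖ ^ 2 = ‖A f‖ ^ 2 - 2 * ⟪A f, P f⟫_ℝ + ‖P f‖ ^ 2 := by
    rw [norm_sub_sq_real]
  have e2 : ⟪A f, P f⟫_ℝ = ⟪A f, f⟫_ℝ := by
    rw [real_inner_comm, hP f (A f), hPA, real_inner_comm]
  have e3 : ‖P f‖ ^ 2 = ⟪P f, f⟫_ℝ := by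
    rw [← real_inner_self_eq_norm_sq, ← hP (P f) f, hidem]
  have h2 := hle f
  rw [e1, e2, e3] at h1
  linarith

variable {B 𝒯 : Type*} [Fintype B] [Fintype 𝒯] [DecidableEq B]

/-- Combinatorial splitting of the off-diagonal double sum over pairs into triples and disjoint
pairs. -/
theorem sum_offDiag_split {M : Type*} [AddCommMonoid M]
    (mem : B → 𝒯 → Prop) [DecidableRel mem] (disj : B → B → Prop) [DecidableRel disj]
    (hcount : ∀ b b' : B, b ≠ b' →
      (univ.filter (fun T : 𝒯 => mem b T ∧ mem b' T)).card = if disj b b' then 0 else 1)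
    (F : B → B → M) :
    ∑ b : B, ∑ b' ∈ univ.filter (fun b' : B => b' ≠ b), F b b'
      = ∑ T : 𝒯, ∑ b ∈ univ.filter (fun b : B => mem b T),
          ∑ b' ∈ univ.filter (fun b' : B => mem b' T ∧ b' ≠ b), F b b'
        + ∑ b : B, ∑ b' ∈ univ.filter (fun b' : B => b' ≠ b ∧ disj b b'), F b b' := by
  classical
  -- rewrite the triple sum as a sum over (b, b') with multiplicity
  have hT : ∑ T : 𝒯, ∑ b ∈ univ.filter (fun b : B => mem b T),
          ∑ b' ∈ univ.filter (fun b' : B => mem b' T ∧ b' ≠ b), F b b'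
      = ∑ b : B, ∑ b' ∈ univ.filter (fun b' : B => b' ≠ b ∧ ¬ disj b b'), F b b' := by
    have h1 : ∀ T : 𝒯, ∑ b ∈ univ.filter (fun b : B => mem b T),
          ∑ b' ∈ univ.filter (fun b' : B => mem b' T ∧ b' ≠ b), F b b'
        = ∑ b : B, ∑ b' : B, if (mem b T ∧ mem b' T) ∧ b' ≠ b then F b b' else 0 := by
      intro T
      rw [Finset.sum_filter]
      refine Finset.sum_congr rfl (fun b _ => ?_)
      by_cases hb : mem b T
      · rw [if_pos hb, Finset.sum_filter]
        refine Finset.sum_congr rfl (fun b' _ => ?_)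
        by_cases hb' : mem b' T ∧ b' ≠ b
        · rw [if_pos hb', if_pos ⟨⟨hb, hb'.1⟩, hb'.2⟩]
        · rw [if_neg hb', if_neg]
          rintro ⟨⟨_, h1⟩, h2⟩
          exact hb' ⟨h1, h2⟩
      · rw [if_neg hb]
        symm
        refine Finset.sum_eq_zero (fun b' _ => ?_)
        rw [if_neg]
        rintro ⟨⟨h1, _⟩, _⟩
        exact hb h1
    simp_rw [h1]
    rw [Finset.sum_comm]
    refine Finset.sum_congr rfl (fun b _ => ?_)
    rw [Finset.sum_comm, Finset.sum_filter]
    refine Finset.sum_congr rfl (fun b' _ => ?_)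
    by_cases hne : b' ≠ b
    · have hc := hcount b b' (Ne.symm hne)
      have e : ∀ T : 𝒯, (if (mem b T ∧ mem b' T) ∧ b' ≠ b then F b b' else 0)
          = if mem b T ∧ mem b' T then F b b' else 0 := by
        intro T
        by_cases h : mem b T ∧ mem b' T
        · rw [if_pos ⟨h, hne⟩, if_pos h]
        · rw [if_neg h, if_neg (fun h' => h h'.1)]
      simp_rw [e]
      rw [← Finset.sum_filter, Finset.sum_const, hc]
      by_cases hd : disj b b'
      · rw [if_pos hd, zero_smul, if_neg (fun h => h.2 hd)]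
      · rw [if_neg hd, one_smul, if_pos ⟨hne, hd⟩]
    · rw [if_neg (fun h => hne h.1)]
      refine Finset.sum_eq_zero (fun T _ => ?_)
      rw [if_neg (fun h => hne h.2)]
  rw [hT, ← Finset.sum_add_distrib]
  refine Finset.sum_congr rfl (fun b _ => ?_)
  rw [← Finset.sum_union]
  · refine Finset.sum_congr ?_ (fun _ _ => rfl)
    ext b'
    simp only [Finset.mem_filter, Finset.mem_univ, true_and, Finset.mem_union]
    tauto
  · rw [Finset.disjoint_left]
    intro b' h1 h2
    simp only [Finset.mem_filter, Finset.mem_univ, true_and] at h1 h2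
    exact h1.2 h2.2

omit [Fintype B] in
/-- For a family of symmetric idempotents, `‖∑ R b f‖² - ⟪∑ R b f, f⟫` is the off-diagonal
sum of `⟪R b f, R b' f⟫`. -/
theorem norm_sq_sum_sub_inner {S : Finset B} (R : B → E →ₗ[ℝ] E)
    (hsym : ∀ b, (R b).IsSymmetric) (hidem : ∀ b (f : E), R b (R b f) = R b f) (f : E) :
    ‖∑ b ∈ S, R b f‖ ^ 2 - ⟪∑ b ∈ S, R b f, f⟫_ℝ
      = ∑ b ∈ S, ∑ b' ∈ S.filter (fun b' : B => b' ≠ b), ⟪R b f, R b' f⟫_ℝ := by
  classical
  rw [← real_inner_self_eq_norm_sq, sum_inner, sum_inner, ← Finset.sum_sub_distrib]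
  refine Finset.sum_congr rfl (fun b hb => ?_)
  rw [inner_sum]
  have hbb : ⟪R b f, R b f⟫_ℝ = ⟪R b f, f⟫_ℝ := by
    rw [← hsym b (R b f) f, hidem]
  rw [← Finset.sum_filter_add_sum_filter_not S (fun b' : B => b' ≠ b)
    (fun b' => ⟪R b f, R b' f⟫_ℝ)]
  have hsingle : ∑ b' ∈ S.filter (fun b' : B => ¬ b' ≠ b), ⟪R b f, R b' f⟫_ℝ = ⟪R b f, f⟫_ℝ := by
    have : S.filter (fun b' : B => ¬ b' ≠ b) = {b} := by
      ext x
      simp only [Finset.mem_filter, ne_eq, not_not, Finset.mem_singleton]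
      constructor
      · exact fun h => h.2
      · rintro rfl; exact ⟨hb, rfl⟩
    rw [this, Finset.sum_singleton, hbb]
  rw [hsingle]
  ring

/-- **Caputo-type assembly.**  `X = ∑ b, R b` with symmetric idempotent `R b`.  If every
three-body operator `A_T = ∑_{b ∈ T} R b` satisfies `⟪A_T f, f⟫ ≤ ‖A_T f‖²` and the sum of
`⟪R b f, R b' f⟫` over ordered disjoint pairs is nonnegative, then `⟪X f, f⟫ ≤ ‖X f‖²`. -/
theorem inner_le_norm_sq_sum
    (mem : B → 𝒯 → Prop) [DecidableRel mem] (disj : B → B → Prop) [DecidableRel disj]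
    (hcount : ∀ b b' : B, b ≠ b' →
      (univ.filter (fun T : 𝒯 => mem b T ∧ mem b' T)).card = if disj b b' then 0 else 1)
    (R : B → E →ₗ[ℝ] E) (hsym : ∀ b, (R b).IsSymmetric)
    (hidem : ∀ b (f : E), R b (R b f) = R b f) (f : E)
    (h3 : ∀ T : 𝒯, ⟪∑ b ∈ univ.filter (fun b : B => mem b T), R b f, f⟫_ℝ
        ≤ ‖∑ b ∈ univ.filter (fun b : B => mem b T), R b f‖ ^ 2)
    (h2 : 0 ≤ ∑ b : B, ∑ b' ∈ univ.filter (fun b' : B => b' ≠ b ∧ disj b b'),
        ⟪R b f, R b' f⟫_ℝ) :
    ⟪∑ b : B, R b f, f⟫_ℝ ≤ ‖∑ b : B, R b f‖ ^ 2 := by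
  classical
  have hX := norm_sq_sum_sub_inner (S := (univ : Finset B)) R hsym hidem f
  have hsplit := sum_offDiag_split mem disj hcount (fun b b' => ⟪R b f, R b' f⟫_ℝ)
  have hTs : ∀ T : 𝒯, 0 ≤ ∑ b ∈ univ.filter (fun b : B => mem b T),
      ∑ b' ∈ univ.filter (fun b' : B => mem b' T ∧ b' ≠ b), ⟪R b f, R b' f⟫_ℝ := by
    intro T
    have hT := norm_sq_sum_sub_inner (S := univ.filter (fun b : B => mem b T)) R hsym hidem f
    have e : ∀ b : B, (univ.filter (fun b : B => mem b T)).filter (fun b' : B => b' ≠ b)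
        = univ.filter (fun b' : B => mem b' T ∧ b' ≠ b) := by
      intro b
      rw [Finset.filter_filter]
    simp_rw [e] at hT
    rw [← hT]
    linarith [h3 T]
  have hsum : 0 ≤ ∑ T : 𝒯, ∑ b ∈ univ.filter (fun b : B => mem b T),
      ∑ b' ∈ univ.filter (fun b' : B => mem b' T ∧ b' ≠ b), ⟪R b f, R b' f⟫_ℝ :=
    Finset.sum_nonneg (fun T _ => hTs T)
  rw [hsplit] at hX
  linarith

/-- **Gap `1` for `X = ∑ b, R b`** under the three-body bound and disjoint-pair positivity:
`‖f‖² ≤ ⟪X f, f⟫` for every `f` orthogonal to `ker X`. -/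
theorem norm_sq_le_inner_sum [FiniteDimensional ℝ E]
    (mem : B → 𝒯 → Prop) [DecidableRel mem] (disj : B → B → Prop) [DecidableRel disj]
    (hcount : ∀ b b' : B, b ≠ b' →
      (univ.filter (fun T : 𝒯 => mem b T ∧ mem b' T)).card = if disj b b' then 0 else 1)
    (R : B → E →ₗ[ℝ] E) (hsym : ∀ b, (R b).IsSymmetric)
    (hidem : ∀ b (f : E), R b (R b f) = R b f)
    (h3 : ∀ (T : 𝒯) (f : E), ⟪∑ b ∈ univ.filter (fun b : B => mem b T), R b f, f⟫_ℝ
        ≤ ‖∑ b ∈ univ.filter (fun b : B => mem b T), R b f‖ ^ 2)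
    (h2 : ∀ f : E, 0 ≤ ∑ b : B, ∑ b' ∈ univ.filter (fun b' : B => b' ≠ b ∧ disj b b'),
        ⟪R b f, R b' f⟫_ℝ)
    (f : E) (hf : f ∈ (LinearMap.ker (∑ b : B, R b))ᗮ) :
    ‖f‖ ^ 2 ≤ ⟪∑ b : B, R b f, f⟫_ℝ := by
  classical
  have hXsym : (∑ b : B, R b).IsSymmetric := by
    intro u w
    simp only [LinearMap.sum_apply, sum_inner, inner_sum]
    exact Finset.sum_congr rfl (fun b _ => hsym b u w)
  have hpos : ∀ g : E, 0 ≤ ⟪(∑ b : B, R b) g, g⟫_ℝ := by
    intro g
    simp only [LinearMap.sum_apply, sum_inner]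
    refine Finset.sum_nonneg (fun b _ => ?_)
    have : ⟪R b g, g⟫_ℝ = ⟪R b g, R b g⟫_ℝ := by
      rw [← hsym b (R b g) g, hidem]
    rw [this]
    exact real_inner_self_nonneg
  have hsq : ∀ g : E, ⟪(∑ b : B, R b) g, g⟫_ℝ ≤ ‖(∑ b : B, R b) g‖ ^ 2 := by
    intro g
    simp only [LinearMap.sum_apply]
    exact inner_le_norm_sq_sum mem disj hcount R hsym hidem g (fun T => h3 T g) (h2 g)
  have key := norm_sq_le_inner_of_sq_ge (∑ b : B, R b) hXsym hpos hsq f hf
  simpa only [LinearMap.sum_apply] using key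

end Abstract

section Concrete

variable {V : Type*} [Fintype V] [DecidableEq V]

/-- The counting hypothesis of `sum_offDiag_split` for pairs and triples of vertices, as
finsets of cardinality `2` and `3`: two distinct pairs lie in a common triple iff they are not
disjoint, and then in exactly one. -/
theorem pairs_triples_count (b b' : {s : Finset V // s.card = 2}) (hne : b ≠ b') :
    (univ.filter (fun T : {s : Finset V // s.card = 3} =>
        (b : Finset V) ⊆ T ∧ (b' : Finset V) ⊆ T)).card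
      = if Disjoint (b : Finset V) (b' : Finset V) then 0 else 1 := by
  classical
  obtain ⟨b, hb⟩ := b
  obtain ⟨b', hb'⟩ := b'
  have hne' : b ≠ b' := fun h => hne (Subtype.ext h)
  by_cases hd : Disjoint b b'
  · rw [if_pos hd, Finset.card_eq_zero, Finset.filter_eq_empty_iff]
    rintro ⟨T, hT⟩ _ ⟨h1, h2⟩
    have hsub : b ∪ b' ⊆ T := Finset.union_subset h1 h2
    have hcard : (b ∪ b').card = 4 := by
      rw [Finset.card_union_of_disjoint hd, hb, hb']
    have := Finset.card_le_card hsub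
    omega
  · rw [if_neg hd]
    -- `b ∩ b'` has exactly one element, so `b ∪ b'` has three
    have hinter_pos : 0 < (b ∩ b').card := by
      rw [Finset.card_pos]
      rw [Finset.not_disjoint_iff] at hd
      obtain ⟨a, ha, ha'⟩ := hd
      exact ⟨a, Finset.mem_inter.mpr ⟨ha, ha'⟩⟩
    have hinter_lt : (b ∩ b').card < 2 := by
      by_contra hge
      have h2 : (b ∩ b').card = 2 := by
        have := Finset.card_le_card (Finset.inter_subset_left : b ∩ b' ⊆ b)
        omega
      have e1 : b ∩ b' = b :=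
        Finset.eq_of_subset_of_card_le Finset.inter_subset_left (by rw [h2, hb])
      have e2 : b ∩ b' = b' :=
        Finset.eq_of_subset_of_card_le Finset.inter_subset_right (by rw [h2, hb'])
      exact hne' (e1.symm.trans e2)
    have hunion : (b ∪ b').card = 3 := by
      have := Finset.card_union_add_card_inter b b'
      omega
    rw [Finset.card_eq_one]
    refine ⟨⟨b ∪ b', hunion⟩, ?_⟩
    ext ⟨T, hT⟩
    simp only [Finset.mem_filter, Finset.mem_univ, true_and, Finset.mem_singleton,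
      Subtype.mk.injEq]
    constructor
    · rintro ⟨h1, h2⟩
      exact (Finset.eq_of_subset_of_card_le (Finset.union_subset h1 h2)
        (by rw [hT, hunion])).symm
    · rintro rfl
      exact ⟨Finset.subset_union_left, Finset.subset_union_right⟩

end Concrete

end Crest.Agent.Helper26.SW
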