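import Mathlib
import Crest.Agent.Helper26.SW.Avg
import Crest.Agent.Helper26.SW.Caputo

/-!
# WP-A of S0453 in counting-sum form (helper26)

`Ω` a finite type of states, `r b` (for `b` in a finite type of "pairs") equivalence relations on
`Ω`, `Q_b = avg (r b)`, `R_b f = f - Q_b f` (`res`), `X = ∑ b, R_b`.

`gap_of_three_body_of_disjoint`: if
* (3B) for every "triple" `T` and every `f`: `⟨f, A_T f⟩ ≤ ⟨A_T f, A_T f⟩`, `A_T = ∑_{b ∈ T} R_b`,
* (DP) for every `f`: `∑_{b ≠ b' disjoint} ⟨R_b f, R_b' f⟩ ≥ 0`,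
* (T3) a function constant on the classes of every `r b` is constant,
then `N ∑ f² - (∑ f)² ≤ N ∑_b ∑_x (f x - Q_b f x)²` (i.e. `Var f ≤ ⟨f, X f⟩`).

(The reduction of (3B) to the fibre inequality is in `ThreeBody.lean`, the `Finset`/key form of
everything in `Keyed.lean`.)
-/

set_option autoImplicit false

namespace Crest.Agent.Helper26.SW

open scoped InnerProductSpace
open Finset

variable {Ω : Type*} [Fintype Ω]

/-- `R f = f - avg r f`. -/
noncomputable def res (r : Setoid Ω) [DecidableRel r.r] (f : Ω → ℝ) : Ω → ℝ := f - avg r f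

theorem res_apply (r : Setoid Ω) [DecidableRel r.r] (f : Ω → ℝ) (x : Ω) :
    res r f x = f x - avg r f x := rfl

/-- `res` as a linear map. -/
noncomputable def resₗ (r : Setoid Ω) [DecidableRel r.r] : (Ω → ℝ) →ₗ[ℝ] (Ω → ℝ) :=
  LinearMap.id - avgₗ r

@[simp] theorem resₗ_apply (r : Setoid Ω) [DecidableRel r.r] (f : Ω → ℝ) :
    resₗ r f = res r f := rfl

theorem res_res (r : Setoid Ω) [DecidableRel r.r] (f : Ω → ℝ) : res r (res r f) = res r f := by
  have h : avg r (res r f) = 0 := by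
    have : res r f = f + (-1 : ℝ) • avg r f := by
      funext x; simp [res_apply]; ring
    rw [this, avg_add, avg_smul, avg_avg]
    funext x; simp
  funext x
  rw [res_apply, h]
  simp

theorem sum_res_mul (r : Setoid Ω) [DecidableRel r.r] (f g : Ω → ℝ) :
    ∑ x, res r f x * g x = ∑ x, f x * res r g x := by
  simp only [res_apply, sub_mul, mul_sub, Finset.sum_sub_distrib, sum_avg_mul r f g]

theorem res_const (r : Setoid Ω) [DecidableRel r.r] (c : ℝ) : res r (fun _ => c) = 0 := by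
  funext x
  rw [res_apply, avg_eq_self_of_const r (fun _ _ _ => rfl)]
  simp

theorem res_eq_zero_iff (r : Setoid Ω) [DecidableRel r.r] (f : Ω → ℝ) :
    res r f = 0 ↔ ∀ x y, r.r x y → f x = f y := by
  constructor
  · intro h x y hxy
    have hx : f x = avg r f x := by
      have := congrFun h x
      rw [res_apply] at this
      simp only [Pi.zero_apply] at this
      linarith
    have hy : f y = avg r f y := by
      have := congrFun h y
      rw [res_apply] at this
      simp only [Pi.zero_apply] at this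
      linarith
    rw [hx, hy, avg_eq_of_rel r f hxy]
  · intro h
    funext x
    rw [res_apply, avg_eq_self_of_const r h]
    simp

/-! ### Transport to `EuclideanSpace ℝ Ω` -/

/-- The identification `EuclideanSpace ℝ Ω ≃ (Ω → ℝ)`. -/
noncomputable def eE (Ω : Type*) [Fintype Ω] : EuclideanSpace ℝ Ω ≃ₗ[ℝ] (Ω → ℝ) :=
  WithLp.linearEquiv 2 ℝ (Ω → ℝ)

theorem inner_eq_sum (u w : EuclideanSpace ℝ Ω) : ⟪u, w⟫_ℝ = ∑ x, eE Ω u x * eE Ω w x := by
  rw [EuclideanSpace.inner_eq_star_dotProduct]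
  simp only [dotProduct, star_trivial]
  refine Finset.sum_congr rfl (fun x _ => ?_)
  rw [mul_comm]; rfl

theorem norm_sq_eq_sum (u : EuclideanSpace ℝ Ω) : ‖u‖ ^ 2 = ∑ x, eE Ω u x ^ 2 := by
  rw [← real_inner_self_eq_norm_sq, inner_eq_sum]
  exact Finset.sum_congr rfl (fun x _ => by ring)

/-- Conjugate of an operator on functions. -/
noncomputable def conj (T : (Ω → ℝ) →ₗ[ℝ] (Ω → ℝ)) : EuclideanSpace ℝ Ω →ₗ[ℝ] EuclideanSpace ℝ Ω :=
  (eE Ω).symm.toLinearMap ∘ₗ T ∘ₗ (eE Ω).toLinearMap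

theorem eE_conj (T : (Ω → ℝ) →ₗ[ℝ] (Ω → ℝ)) (u : EuclideanSpace ℝ Ω) :
    eE Ω (conj T u) = T (eE Ω u) := by
  simp [conj]

variable {B 𝒯 : Type*} [Fintype B] [Fintype 𝒯] [DecidableEq B]

/-- **WP-A, final form.**  Three-body bound + disjoint-pair positivity + connectivity give
`N ∑ f² - (∑ f)² ≤ N ∑_b ∑_x (f x - Q_b f x)²`. -/
theorem gap_of_three_body_of_disjoint
    (mem : B → 𝒯 → Prop) [DecidableRel mem] (disj : B → B → Prop) [DecidableRel disj]
    (hcount : ∀ b b' : B, b ≠ b' →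
      (univ.filter (fun T : 𝒯 => mem b T ∧ mem b' T)).card = if disj b b' then 0 else 1)
    (r : B → Setoid Ω) [∀ b, DecidableRel (r b).r]
    (h3 : ∀ (T : 𝒯) (f : Ω → ℝ),
        ∑ x, f x * (∑ b ∈ univ.filter (fun b : B => mem b T), res (r b) f x)
          ≤ ∑ x, (∑ b ∈ univ.filter (fun b : B => mem b T), res (r b) f x) ^ 2)
    (h2 : ∀ f : Ω → ℝ, 0 ≤ ∑ b : B, ∑ b' ∈ univ.filter (fun b' : B => b' ≠ b ∧ disj b b'),
        ∑ x, res (r b) f x * res (r b') f x)
    (hconn : ∀ f : Ω → ℝ, (∀ b x y, (r b).r x y → f x = f y) → ∀ x y, f x = f y)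
    (f : Ω → ℝ) :
    (Fintype.card Ω : ℝ) * ∑ x, f x ^ 2 - (∑ x, f x) ^ 2
      ≤ (Fintype.card Ω : ℝ) * ∑ b : B, ∑ x, (f x - avg (r b) f x) ^ 2 := by
  classical
  rcases isEmpty_or_nonempty Ω with hΩ | hΩ
  · simp
  have hN : (0 : ℝ) < (Fintype.card Ω : ℝ) := by
    have : 0 < Fintype.card Ω := Fintype.card_pos
    exact_mod_cast this
  set R' : B → EuclideanSpace ℝ Ω →ₗ[ℝ] EuclideanSpace ℝ Ω := fun b => conj (resₗ (r b)) with hR'
  have hR'e : ∀ b (u : EuclideanSpace ℝ Ω), eE Ω (R' b u) = res (r b) (eE Ω u) := by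
    intro b u
    rw [hR', eE_conj, resₗ_apply]
  have hsumR : ∀ (S : Finset B) (u : EuclideanSpace ℝ Ω) (x : Ω),
      eE Ω (∑ b ∈ S, R' b u) x = ∑ b ∈ S, res (r b) (eE Ω u) x := by
    intro S u x
    rw [map_sum, Finset.sum_apply]
    exact Finset.sum_congr rfl (fun b _ => by rw [hR'e])
  have hsym : ∀ b, (R' b).IsSymmetric := by
    intro b u w
    rw [inner_eq_sum, inner_eq_sum, hR'e, hR'e]
    exact sum_res_mul (r b) _ _
  have hidem : ∀ b (u : EuclideanSpace ℝ Ω), R' b (R' b u) = R' b u := by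
    intro b u
    apply (eE Ω).injective
    rw [hR'e, hR'e, res_res]
  have h3' : ∀ (T : 𝒯) (u : EuclideanSpace ℝ Ω),
      ⟪∑ b ∈ univ.filter (fun b : B => mem b T), R' b u, u⟫_ℝ
        ≤ ‖∑ b ∈ univ.filter (fun b : B => mem b T), R' b u‖ ^ 2 := by
    intro T u
    rw [inner_eq_sum, norm_sq_eq_sum]
    simp only [hsumR]
    have := h3 T (eE Ω u)
    calc ∑ x, (∑ b ∈ univ.filter (fun b : B => mem b T), res (r b) (eE Ω u) x) * eE Ω u x
        = ∑ x, eE Ω u x * (∑ b ∈ univ.filter (fun b : B => mem b T), res (r b) (eE Ω u) x) :=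
          Finset.sum_congr rfl (fun x _ => mul_comm _ _)
      _ ≤ _ := this
  have h2' : ∀ u : EuclideanSpace ℝ Ω,
      0 ≤ ∑ b : B, ∑ b' ∈ univ.filter (fun b' : B => b' ≠ b ∧ disj b b'),
        ⟪R' b u, R' b' u⟫_ℝ := by
    intro u
    have := h2 (eE Ω u)
    simp only [inner_eq_sum, hR'e]
    exact this
  -- mean-zero part of `f`
  set m : ℝ := (∑ x, f x) / Fintype.card Ω with hm
  set f₀ : Ω → ℝ := fun x => f x - m with hf₀
  have hsum0 : ∑ x, f₀ x = 0 := by
    simp only [hf₀, Finset.sum_sub_distrib, Finset.sum_const, Finset.card_univ, nsmul_eq_mul, hm]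
    field_simp
    ring
  have hres : ∀ b, res (r b) f₀ = res (r b) f := by
    intro b
    have e1 : f₀ = f + (-1 : ℝ) • (fun _ => m) := by
      funext x; simp [hf₀]; ring
    have e2 : res (r b) (f + (-1 : ℝ) • (fun _ : Ω => m))
        = res (r b) f + (-1 : ℝ) • res (r b) (fun _ : Ω => m) := by
      rw [← resₗ_apply, map_add, map_smul]; rfl
    rw [e1, e2, res_const]
    simp
  have hmem : (eE Ω).symm f₀ ∈ (LinearMap.ker (∑ b : B, R' b))ᗮ := by
    rw [Submodule.mem_orthogonal]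
    intro g hg
    rw [LinearMap.mem_ker] at hg
    -- every `R' b g = 0`
    have hzero : ∀ b, R' b g = 0 := by
      have h0 : ∑ b : B, ⟪R' b g, g⟫_ℝ = 0 := by
        have : ⟪(∑ b : B, R' b) g, g⟫_ℝ = 0 := by rw [hg, inner_zero_left]
        simpa only [LinearMap.sum_apply, sum_inner] using this
      have hnn : ∀ b ∈ (univ : Finset B), 0 ≤ ⟪R' b g, g⟫_ℝ := by
        intro b _
        have : ⟪R' b g, g⟫_ℝ = ⟪R' b g, R' b g⟫_ℝ := by
          rw [← hsym b (R' b g) g, hidem]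
        rw [this]
        exact real_inner_self_nonneg
      intro b
      have hb := (Finset.sum_eq_zero_iff_of_nonneg hnn).mp h0 b (Finset.mem_univ b)
      have : ⟪R' b g, R' b g⟫_ℝ = 0 := by
        rw [← hb, ← hsym b (R' b g) g, hidem]
      exact inner_self_eq_zero.mp this
    have hconst : ∀ x y, eE Ω g x = eE Ω g y := by
      apply hconn
      intro b x y hxy
      have hb : res (r b) (eE Ω g) = 0 := by
        rw [← hR'e, hzero b]; simp
      exact (res_eq_zero_iff (r b) _).mp hb x y hxy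
    rw [inner_eq_sum]
    obtain ⟨x₀⟩ := hΩ
    have e1 : ∀ x, eE Ω g x * eE Ω ((eE Ω).symm f₀) x = eE Ω g x₀ * f₀ x := by
      intro x
      rw [hconst x x₀]
      simp
    simp only [e1, ← Finset.mul_sum, hsum0, mul_zero]
  have key := norm_sq_le_inner_sum mem disj hcount R' hsym hidem h3' h2' ((eE Ω).symm f₀) hmem
  rw [norm_sq_eq_sum, inner_eq_sum] at key
  simp only [hsumR, LinearEquiv.apply_symm_apply, hres] at key
  -- rewrite the right-hand side
  have hrhs : ∑ x, (∑ b : B, res (r b) f x) * f₀ x = ∑ b : B, ∑ x, (f x - avg (r b) f x) ^ 2 := by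
    have e1 : ∑ x, (∑ b : B, res (r b) f x) * f₀ x = ∑ b : B, ∑ x, res (r b) f x * f₀ x := by
      rw [Finset.sum_comm]
      exact Finset.sum_congr rfl (fun x _ => Finset.sum_mul _ _ _)
    rw [e1]
    refine Finset.sum_congr rfl (fun b _ => ?_)
    rw [sum_res_mul (r b) f f₀, hres b, ← sum_mul_sub_avg (r b) f]
    rfl
  have hlhs : ∑ x, f₀ x ^ 2 = ∑ x, f x ^ 2 - (∑ x, f x) ^ 2 / Fintype.card Ω := by
    have e1 : ∀ x, f₀ x ^ 2 = f x ^ 2 - 2 * m * f x + m ^ 2 := by
      intro x; simp only [hf₀]; ring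
    simp only [e1, Finset.sum_add_distrib, Finset.sum_sub_distrib, ← Finset.mul_sum,
      Finset.sum_const, Finset.card_univ, nsmul_eq_mul, hm]
    field_simp
    ring
  rw [hrhs, hlhs] at key
  have := mul_le_mul_of_nonneg_left key hN.le
  calc (Fintype.card Ω : ℝ) * ∑ x, f x ^ 2 - (∑ x, f x) ^ 2
      = (Fintype.card Ω : ℝ) * (∑ x, f x ^ 2 - (∑ x, f x) ^ 2 / Fintype.card Ω) := by
        field_simp
    _ ≤ _ := this

end Crest.Agent.Helper26.SW
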