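import Mathlib
import Crest.Agent.Helper26.SW.GapAssembly

/-!
# The three-body inequality from the fibre inequality (helper26, S0453 / WP-A, PROOF.md §2.1–2.2)

`Ω` finite, `r b` (`b ∈ S`) equivalence relations on `Ω`, `rT` an equivalence relation coarser
than every `r b`, `b ∈ S`.  With `Q_b = avg (r b)`, `R_b = res (r b)`, `E = avg rT`,
`A = ∑_{b ∈ S} R_b`:

* `three_body_of_proj_le`: if `⟨f, (I - E) f⟩ ≤ ⟨f, A f⟩` for all `f`, then `⟨f, A f⟩ ≤ ⟨A f, A f⟩`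
  for all `f` (this is hypothesis `h3` of `gap_of_three_body_of_disjoint`);
* `proj_le_of_avg_le`: `⟨f, (I - E) f⟩ ≤ ⟨f, A f⟩` follows from
  `⟨f, ∑_{b ∈ S} Q_b f⟩ ≤ (|S| - 1) ⟨f, f⟩ + ⟨f, E f⟩`;
* `three_body_of_fibre`: the same from `∑_{b ∈ S} ‖Q_b g‖² ≤ (|S| - 1) ‖g‖²` for all `g` with
  `E g = 0`;
* `fibre_of_classwise`: the latter may be checked on each class of `rT` separately.
-/

set_option autoImplicit false

namespace Crest.Agent.Helper26.SW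

open Finset

variable {Ω : Type*} [Fintype Ω]

section Basic

variable (r : Setoid Ω) [DecidableRel r.r]

theorem res_add (f g : Ω → ℝ) : res r (f + g) = res r f + res r g := by
  rw [← resₗ_apply, map_add]; rfl

theorem res_smul (c : ℝ) (f : Ω → ℝ) : res r (c • f) = c • res r f := by
  rw [← resₗ_apply, map_smul]; rfl

theorem res_sub (f g : Ω → ℝ) : res r (f - g) = res r f - res r g := by
  rw [← resₗ_apply, map_sub]; rfl

theorem avg_sub (f g : Ω → ℝ) : avg r (f - g) = avg r f - avg r g := by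
  rw [← avgₗ_apply, map_sub]; rfl

theorem avg_zero : avg r (0 : Ω → ℝ) = 0 := by
  rw [← avgₗ_apply, map_zero]

theorem avg_res (f : Ω → ℝ) : avg r (res r f) = 0 := by
  have : res r f = f - avg r f := rfl
  rw [this, avg_sub, avg_avg, sub_self]

/-- `‖Q f‖² = ⟨f, Q f⟩`. -/
theorem sum_avg_sq (f : Ω → ℝ) : ∑ x, avg r f x ^ 2 = ∑ x, f x * avg r f x := by
  have h := sum_avg_mul r f (avg r f)
  rw [avg_avg] at h
  rw [← h]
  exact Finset.sum_congr rfl (fun x _ => by ring)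

/-- Pythagoras: `‖f - Q f‖² = ‖f‖² - ‖Q f‖²`. -/
theorem sum_sq_sub_avg (f : Ω → ℝ) :
    ∑ x, (f x - avg r f x) ^ 2 = ∑ x, f x ^ 2 - ∑ x, avg r f x ^ 2 := by
  rw [← sum_mul_sub_avg r f, sum_avg_sq r f, ← Finset.sum_sub_distrib]
  exact Finset.sum_congr rfl (fun x _ => by ring)

/-- `⟨f, R f⟩ = ‖R f‖²`. -/
theorem sum_mul_res (f : Ω → ℝ) : ∑ x, f x * res r f x = ∑ x, res r f x ^ 2 :=
  sum_mul_sub_avg r f

end Basic

section Coarser

variable (r rT : Setoid Ω) [DecidableRel r.r] [DecidableRel rT.r]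

/-- `R_b E = 0` for a coarser `E`. -/
theorem res_avg_of_le (h : ∀ x y, r.r x y → rT.r x y) (f : Ω → ℝ) : res r (avg rT f) = 0 :=
  (res_eq_zero_iff r _).mpr (fun _ _ hxy => avg_eq_of_rel rT f (h _ _ hxy))

/-- `R_b (I - E) = R_b` for a coarser `E`. -/
theorem res_res_of_le (h : ∀ x y, r.r x y → rT.r x y) (f : Ω → ℝ) :
    res r (res rT f) = res r f := by
  have : res rT f = f - avg rT f := rfl
  rw [this, res_sub, res_avg_of_le r rT h, sub_zero]

/-- `E R_b = 0` for a coarser `E`. -/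
theorem avg_res_of_le (h : ∀ x y, r.r x y → rT.r x y) (f : Ω → ℝ) : avg rT (res r f) = 0 := by
  have : res r f = f - avg r f := rfl
  rw [this, avg_sub, avg_avg_of_le' r rT h, sub_self]

end Coarser

section ThreeBody

variable {B : Type*} (S : Finset B) (r : B → Setoid Ω) [∀ b, DecidableRel (r b).r]
  (rT : Setoid Ω) [DecidableRel rT.r]

/-- `⟨f, A f⟩ = ⟨g, A g⟩` and `A f = A g` for `g = (I - E) f`. -/
theorem sum_mul_sumres_eq (hle : ∀ b ∈ S, ∀ x y, (r b).r x y → rT.r x y) (f : Ω → ℝ) :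
    ∑ x, f x * (∑ b ∈ S, res (r b) f x)
      = ∑ x, res rT f x * (∑ b ∈ S, res (r b) (res rT f) x) := by
  have e1 : ∀ x, ∑ b ∈ S, res (r b) (res rT f) x = ∑ b ∈ S, res (r b) f x := by
    intro x
    exact Finset.sum_congr rfl (fun b hb => by rw [res_res_of_le (r b) rT (hle b hb)])
  simp only [e1]
  have e2 : ∑ x, avg rT f x * (∑ b ∈ S, res (r b) f x) = 0 := by
    have : ∑ x, avg rT f x * (∑ b ∈ S, res (r b) f x)
        = ∑ b ∈ S, ∑ x, avg rT f x * res (r b) f x := by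
      rw [Finset.sum_comm]
      exact Finset.sum_congr rfl (fun x _ => Finset.mul_sum _ _ _)
    rw [this]
    refine Finset.sum_eq_zero (fun b hb => ?_)
    rw [← sum_res_mul (r b) (avg rT f) f, res_avg_of_le (r b) rT (hle b hb)]
    simp
  have e3 : ∑ x, f x * (∑ b ∈ S, res (r b) f x)
      = ∑ x, res rT f x * (∑ b ∈ S, res (r b) f x)
        + ∑ x, avg rT f x * (∑ b ∈ S, res (r b) f x) := by
    rw [← Finset.sum_add_distrib]
    refine Finset.sum_congr rfl (fun x _ => ?_)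
    rw [res_apply]; ring
  rw [e3, e2, add_zero]

/-- **(3B) from `Π_T ≤ A_T`.** -/
theorem three_body_of_proj_le (hle : ∀ b ∈ S, ∀ x y, (r b).r x y → rT.r x y)
    (hP : ∀ f : Ω → ℝ, ∑ x, f x * res rT f x ≤ ∑ x, f x * (∑ b ∈ S, res (r b) f x))
    (f : Ω → ℝ) :
    ∑ x, f x * (∑ b ∈ S, res (r b) f x) ≤ ∑ x, (∑ b ∈ S, res (r b) f x) ^ 2 := by
  set g : Ω → ℝ := res rT f with hg
  have e1 : ∀ x, ∑ b ∈ S, res (r b) g x = ∑ b ∈ S, res (r b) f x := by
    intro x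
    exact Finset.sum_congr rfl (fun b hb => by rw [hg, res_res_of_le (r b) rT (hle b hb)])
  have h1 := sum_mul_sumres_eq S r rT hle f
  rw [← hg] at h1
  have h2 := hP g
  have h3 : ∑ x, g x * res rT g x = ∑ x, g x ^ 2 := by
    rw [hg, res_res]
    exact Finset.sum_congr rfl (fun x _ => by ring)
  rw [h3] at h2
  have h4 : 0 ≤ ∑ x, ((∑ b ∈ S, res (r b) g x) - g x) ^ 2 :=
    Finset.sum_nonneg (fun x _ => sq_nonneg _)
  have h5 : ∑ x, ((∑ b ∈ S, res (r b) g x) - g x) ^ 2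
      = ∑ x, (∑ b ∈ S, res (r b) g x) ^ 2 - 2 * ∑ x, g x * (∑ b ∈ S, res (r b) g x)
        + ∑ x, g x ^ 2 := by
    rw [Finset.mul_sum, ← Finset.sum_sub_distrib, ← Finset.sum_add_distrib]
    exact Finset.sum_congr rfl (fun x _ => by ring)
  rw [h1]
  simp only [e1] at h2 h4 h5 ⊢
  linarith

/-- `Π_T ≤ A_T` from `⟨f, ∑ Q_b f⟩ ≤ (|S| - 1) ‖f‖² + ⟨f, E f⟩`. -/
theorem proj_le_of_avg_le
    (hQ : ∀ f : Ω → ℝ, ∑ x, f x * (∑ b ∈ S, avg (r b) f x)
        ≤ ((S.card : ℝ) - 1) * ∑ x, f x ^ 2 + ∑ x, f x * avg rT f x)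
    (f : Ω → ℝ) :
    ∑ x, f x * res rT f x ≤ ∑ x, f x * (∑ b ∈ S, res (r b) f x) := by
  have e1 : ∑ x, f x * res rT f x = ∑ x, f x ^ 2 - ∑ x, f x * avg rT f x := by
    rw [← Finset.sum_sub_distrib]
    exact Finset.sum_congr rfl (fun x _ => by rw [res_apply]; ring)
  have e2 : ∑ x, f x * (∑ b ∈ S, res (r b) f x)
      = (S.card : ℝ) * ∑ x, f x ^ 2 - ∑ x, f x * (∑ b ∈ S, avg (r b) f x) := by
    rw [Finset.mul_sum, ← Finset.sum_sub_distrib]
    refine Finset.sum_congr rfl (fun x _ => ?_)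
    simp only [res_apply, Finset.sum_sub_distrib, Finset.sum_const, nsmul_eq_mul]
    ring
  rw [e1, e2]
  linarith [hQ f]

/-- **(3B) from the quadratic-form inequality `∑ Q_b ≤ (|S| - 1) + E_T`.** -/
theorem three_body_of_avg_le (hle : ∀ b ∈ S, ∀ x y, (r b).r x y → rT.r x y)
    (hQ : ∀ f : Ω → ℝ, ∑ x, f x * (∑ b ∈ S, avg (r b) f x)
        ≤ ((S.card : ℝ) - 1) * ∑ x, f x ^ 2 + ∑ x, f x * avg rT f x)
    (f : Ω → ℝ) :
    ∑ x, f x * (∑ b ∈ S, res (r b) f x) ≤ ∑ x, (∑ b ∈ S, res (r b) f x) ^ 2 :=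
  three_body_of_proj_le S r rT hle (proj_le_of_avg_le S r rT hQ) f

/-- **(3B) from the fibre inequality** `∑_{b ∈ S} ‖Q_b g‖² ≤ (|S| - 1) ‖g‖²` for `E_T g = 0`
(PROOF.md (2.2)). -/
theorem three_body_of_fibre (hle : ∀ b ∈ S, ∀ x y, (r b).r x y → rT.r x y)
    (hF : ∀ g : Ω → ℝ, avg rT g = 0 →
        ∑ b ∈ S, ∑ x, avg (r b) g x ^ 2 ≤ ((S.card : ℝ) - 1) * ∑ x, g x ^ 2)
    (f : Ω → ℝ) :
    ∑ x, f x * (∑ b ∈ S, res (r b) f x) ≤ ∑ x, (∑ b ∈ S, res (r b) f x) ^ 2 := by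
  refine three_body_of_proj_le S r rT hle (fun f => ?_) f
  set g : Ω → ℝ := res rT f with hg
  rw [sum_mul_sumres_eq S r rT hle f, ← hg]
  have h1 : ∑ x, f x * g x = ∑ x, g x ^ 2 := by
    rw [hg]; exact sum_mul_res rT f
  have h2 := hF g (by rw [hg]; exact avg_res rT f)
  have h3 : ∑ x, g x * (∑ b ∈ S, res (r b) g x)
      = (S.card : ℝ) * ∑ x, g x ^ 2 - ∑ b ∈ S, ∑ x, avg (r b) g x ^ 2 := by
    have : ∑ x, g x * (∑ b ∈ S, res (r b) g x) = ∑ b ∈ S, ∑ x, g x * res (r b) g x := by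
      rw [Finset.sum_comm]
      exact Finset.sum_congr rfl (fun x _ => Finset.mul_sum _ _ _)
    rw [this]
    have : ∀ b ∈ S, ∑ x, g x * res (r b) g x = ∑ x, g x ^ 2 - ∑ x, avg (r b) g x ^ 2 := by
      intro b _
      rw [sum_mul_res, ← sum_sq_sub_avg]
      rfl
    rw [Finset.sum_congr rfl this, Finset.sum_sub_distrib, Finset.sum_const, nsmul_eq_mul]
  rw [h1, h3]
  linarith

/-- The fibre inequality may be checked class by class. -/
theorem fibre_of_classwise (c : ℝ)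
    (hcl : ∀ (x₀ : Ω) (g : Ω → ℝ), ∑ y ∈ cls rT x₀, g y = 0 →
        ∑ b ∈ S, ∑ x ∈ cls rT x₀, avg (r b) g x ^ 2 ≤ c * ∑ x ∈ cls rT x₀, g x ^ 2)
    (g : Ω → ℝ) (hg : avg rT g = 0) :
    ∑ b ∈ S, ∑ x, avg (r b) g x ^ 2 ≤ c * ∑ x, g x ^ 2 := by
  set H : Ω → ℝ := fun x => c * g x ^ 2 - ∑ b ∈ S, avg (r b) g x ^ 2 with hH
  have h0 : ∀ x₀, 0 ≤ avg rT H x₀ := by
    intro x₀
    rw [avg_apply]
    apply div_nonneg _ (Nat.cast_nonneg _)
    have hz : ∑ y ∈ cls rT x₀, g y = 0 := by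
      have := congrFun hg x₀
      rw [avg_apply] at this
      simp only [Pi.zero_apply] at this
      rcases div_eq_zero_iff.mp this with h | h
      · exact h
      · exact absurd h (card_cls_ne_zero rT x₀)
    have := hcl x₀ g hz
    simp only [hH, Finset.sum_sub_distrib, ← Finset.mul_sum]
    rw [Finset.sum_comm]
    linarith
  have h1 : 0 ≤ ∑ x, H x := by
    rw [← sum_avg rT H]
    exact Finset.sum_nonneg (fun x _ => h0 x)
  simp only [hH, Finset.sum_sub_distrib, ← Finset.mul_sum] at h1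
  rw [Finset.sum_comm] at h1
  linarith

end ThreeBody

end Crest.Agent.Helper26.SW
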