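import Mathlib
import Crest.Agent.Helper26.SW.ThreeBody

/-!
# WP-A of S0453 in `Finset` / key form (helper26)

`Om : Finset α` is the state space, a "key" `κ : α → β` defines the equivalence relation
`κ x = κ y` on `Om`, and `cavg Om κ f x` is the average of `f` over the class of `x` in `Om`.

* `gap_keyed`: three-body bound + disjoint-pair positivity + connectivity give
  `|Om| ∑ f² - (∑ f)² ≤ |Om| ∑_b ∑_{x ∈ Om} (f x - cavg Om (κ b) f x)²`.
* `three_body_keyed`: the three-body bound from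
  `⟨f, ∑_{b ∈ S} Q_b f⟩ ≤ (|S| - 1) ⟨f, f⟩ + ⟨f, E_T f⟩` for a coarser key `κT`.
* `gap_keyed_of_avg_le`: the two combined.
-/

set_option autoImplicit false

namespace Crest.Agent.Helper26.SW

open Finset

variable {α β γ : Type*} [DecidableEq β] [DecidableEq γ]

/-- Average of `f` over the elements of `Om` having the same key as `x`. -/
noncomputable def cavg (Om : Finset α) (κ : α → β) (f : α → ℝ) (x : α) : ℝ :=
  (∑ y ∈ Om.filter (fun y => κ y = κ x), f y) / ((Om.filter (fun y => κ y = κ x)).card : ℝ)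

theorem cavg_apply (Om : Finset α) (κ : α → β) (f : α → ℝ) (x : α) :
    cavg Om κ f x
      = (∑ y ∈ Om.filter (fun y => κ y = κ x), f y)
          / ((Om.filter (fun y => κ y = κ x)).card : ℝ) := rfl

/-- `cavg` only depends on the values of `f` on `Om`. -/
theorem cavg_congr (Om : Finset α) (κ : α → β) {f g : α → ℝ} (h : ∀ x ∈ Om, f x = g x) (x : α) :
    cavg Om κ f x = cavg Om κ g x := by
  rw [cavg_apply, cavg_apply]
  congr 1
  exact Finset.sum_congr rfl (fun y hy => h y (Finset.mem_filter.mp hy).1)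

/-- The relation "same key" on the subtype of `Om`. -/
def keySetoid (Om : Finset α) (κ : α → β) : Setoid {x // x ∈ Om} where
  r x y := κ x.1 = κ y.1
  iseqv := ⟨fun _ => rfl, fun h => h.symm, fun h h' => h.trans h'⟩

instance (Om : Finset α) (κ : α → β) : DecidableRel (keySetoid Om κ).r :=
  fun x y => inferInstanceAs (Decidable (κ x.1 = κ y.1))

omit [DecidableEq β] in
theorem keySetoid_r (Om : Finset α) (κ : α → β) (x y : {x // x ∈ Om}) :
    (keySetoid Om κ).r x y ↔ κ x.1 = κ y.1 := Iff.rfl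

theorem cls_keySetoid_map (Om : Finset α) (κ : α → β) (x : {x // x ∈ Om}) :
    (cls (keySetoid Om κ) x).map (Function.Embedding.subtype _)
      = Om.filter (fun y => κ y = κ x.1) := by
  ext y
  simp only [Finset.mem_map, mem_cls, Function.Embedding.coe_subtype, Finset.mem_filter,
    keySetoid_r]
  constructor
  · rintro ⟨z, hz, rfl⟩
    exact ⟨z.2, hz.symm⟩
  · rintro ⟨hy, h⟩
    exact ⟨⟨y, hy⟩, h.symm, rfl⟩

/-- `avg` of the key relation is `cavg`. -/
theorem avg_keySetoid (Om : Finset α) (κ : α → β) (f : α → ℝ) (x : {x // x ∈ Om}) :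
    avg (keySetoid Om κ) (fun y => f y.1) x = cavg Om κ f x.1 := by
  rw [avg_apply, cavg_apply, ← cls_keySetoid_map, Finset.sum_map, Finset.card_map]
  rfl

open Classical in
/-- Extension by zero of a function on the subtype. -/
noncomputable def ext0 (Om : Finset α) (g : {x // x ∈ Om} → ℝ) : α → ℝ :=
  fun x => if h : x ∈ Om then g ⟨x, h⟩ else 0

theorem ext0_coe (Om : Finset α) (g : {x // x ∈ Om} → ℝ) (x : {x // x ∈ Om}) :
    ext0 Om g x.1 = g x := by
  simp [ext0]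

theorem avg_keySetoid' (Om : Finset α) (κ : α → β) (g : {x // x ∈ Om} → ℝ)
    (x : {x // x ∈ Om}) :
    avg (keySetoid Om κ) g x = cavg Om κ (ext0 Om g) x.1 := by
  rw [← avg_keySetoid]
  congr 1
  funext y
  rw [ext0_coe]

theorem res_keySetoid' (Om : Finset α) (κ : α → β) (g : {x // x ∈ Om} → ℝ)
    (x : {x // x ∈ Om}) :
    res (keySetoid Om κ) g x = ext0 Om g x.1 - cavg Om κ (ext0 Om g) x.1 := by
  rw [res_apply, avg_keySetoid', ext0_coe]

section Gap

variable {B 𝒯 : Type*} [Fintype B] [Fintype 𝒯] [DecidableEq B]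

/-- **WP-A, `Finset`/key form.** -/
theorem gap_keyed (Om : Finset α)
    (mem : B → 𝒯 → Prop) [DecidableRel mem] (disj : B → B → Prop) [DecidableRel disj]
    (hcount : ∀ b b' : B, b ≠ b' →
      (univ.filter (fun T : 𝒯 => mem b T ∧ mem b' T)).card = if disj b b' then 0 else 1)
    (κ : B → α → β)
    (h3 : ∀ (T : 𝒯) (f : α → ℝ),
        ∑ x ∈ Om, f x * (∑ b ∈ univ.filter (fun b : B => mem b T), (f x - cavg Om (κ b) f x))
          ≤ ∑ x ∈ Om, (∑ b ∈ univ.filter (fun b : B => mem b T), (f x - cavg Om (κ b) f x)) ^ 2)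
    (h2 : ∀ f : α → ℝ, 0 ≤ ∑ b : B, ∑ b' ∈ univ.filter (fun b' : B => b' ≠ b ∧ disj b b'),
        ∑ x ∈ Om, (f x - cavg Om (κ b) f x) * (f x - cavg Om (κ b') f x))
    (hconn : ∀ f : α → ℝ, (∀ b, ∀ x ∈ Om, ∀ y ∈ Om, κ b x = κ b y → f x = f y) →
        ∀ x ∈ Om, ∀ y ∈ Om, f x = f y)
    (f : α → ℝ) :
    (Om.card : ℝ) * ∑ x ∈ Om, f x ^ 2 - (∑ x ∈ Om, f x) ^ 2
      ≤ (Om.card : ℝ) * ∑ b : B, ∑ x ∈ Om, (f x - cavg Om (κ b) f x) ^ 2 := by
  classical
  have key := gap_of_three_body_of_disjoint (Ω := {x // x ∈ Om}) mem disj hcount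
    (fun b => keySetoid Om (κ b)) ?_ ?_ ?_ (fun x => f x.1)
  · rw [Fintype.card_coe] at key
    simp only [avg_keySetoid] at key
    rw [Finset.sum_coe_sort Om (fun x => f x ^ 2), Finset.sum_coe_sort Om f] at key
    have e : ∀ b : B, ∑ x : {x // x ∈ Om}, (f x.1 - cavg Om (κ b) f x.1) ^ 2
        = ∑ x ∈ Om, (f x - cavg Om (κ b) f x) ^ 2 :=
      fun b => Finset.sum_coe_sort Om (fun x => (f x - cavg Om (κ b) f x) ^ 2)
    simp only [e] at key
    exact key
  · intro T g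
    simp only [res_keySetoid', ext0_coe]
    have := h3 T (ext0 Om g)
    rw [← Finset.sum_coe_sort Om (fun x => ext0 Om g x
        * (∑ b ∈ univ.filter (fun b : B => mem b T), (ext0 Om g x - cavg Om (κ b) (ext0 Om g) x))),
      ← Finset.sum_coe_sort Om (fun x =>
        (∑ b ∈ univ.filter (fun b : B => mem b T),
          (ext0 Om g x - cavg Om (κ b) (ext0 Om g) x)) ^ 2)] at this
    simp only [ext0_coe] at this
    exact this
  · intro g
    simp only [res_keySetoid', ext0_coe]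
    have := h2 (ext0 Om g)
    have e : ∀ b b' : B, ∑ x ∈ Om, (ext0 Om g x - cavg Om (κ b) (ext0 Om g) x)
          * (ext0 Om g x - cavg Om (κ b') (ext0 Om g) x)
        = ∑ x : {x // x ∈ Om},
        (ext0 Om g x.1 - cavg Om (κ b) (ext0 Om g) x.1)
          * (ext0 Om g x.1 - cavg Om (κ b') (ext0 Om g) x.1) :=
      fun b b' => (Finset.sum_coe_sort Om (fun x => (ext0 Om g x - cavg Om (κ b) (ext0 Om g) x)
          * (ext0 Om g x - cavg Om (κ b') (ext0 Om g) x))).symm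
    simp only [e, ext0_coe] at this
    exact this
  · intro g hg x y
    have := hconn (ext0 Om g) (fun b x hx y hy hxy => by
      have := hg b ⟨x, hx⟩ ⟨y, hy⟩ hxy
      rw [← ext0_coe Om g ⟨x, hx⟩, ← ext0_coe Om g ⟨y, hy⟩] at this
      exact this) x.1 x.2 y.1 y.2
    rw [ext0_coe, ext0_coe] at this
    exact this

end Gap

section ThreeBodyKeyed

variable {B : Type*}

/-- **Three-body bound, `Finset`/key form**: from
`⟨f, ∑_{b ∈ S} Q_b f⟩ ≤ (|S| - 1) ⟨f, f⟩ + ⟨f, E_T f⟩` with `κT` coarser than every `κ b`. -/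
theorem three_body_keyed (Om : Finset α) (S : Finset B) (κ : B → α → β) (κT : α → γ)
    (hle : ∀ b ∈ S, ∀ x ∈ Om, ∀ y ∈ Om, κ b x = κ b y → κT x = κT y)
    (hQ : ∀ f : α → ℝ, ∑ x ∈ Om, f x * (∑ b ∈ S, cavg Om (κ b) f x)
        ≤ ((S.card : ℝ) - 1) * ∑ x ∈ Om, f x ^ 2 + ∑ x ∈ Om, f x * cavg Om κT f x)
    (f : α → ℝ) :
    ∑ x ∈ Om, f x * (∑ b ∈ S, (f x - cavg Om (κ b) f x))
      ≤ ∑ x ∈ Om, (∑ b ∈ S, (f x - cavg Om (κ b) f x)) ^ 2 := by
  classical
  have key := three_body_of_avg_le (Ω := {x // x ∈ Om}) S (fun b => keySetoid Om (κ b))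
    (keySetoid Om κT) ?_ ?_ (fun x => f x.1)
  · simp only [res_apply, avg_keySetoid] at key
    rw [Finset.sum_coe_sort Om (fun x => f x * (∑ b ∈ S, (f x - cavg Om (κ b) f x))),
      Finset.sum_coe_sort Om (fun x => (∑ b ∈ S, (f x - cavg Om (κ b) f x)) ^ 2)] at key
    exact key
  · intro b hb x y hxy
    exact hle b hb x.1 x.2 y.1 y.2 hxy
  · intro g
    simp only [avg_keySetoid']
    have := hQ (ext0 Om g)
    rw [← Finset.sum_coe_sort Om (fun x => ext0 Om g x * (∑ b ∈ S, cavg Om (κ b) (ext0 Om g) x)),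
      ← Finset.sum_coe_sort Om (fun x => ext0 Om g x ^ 2),
      ← Finset.sum_coe_sort Om (fun x => ext0 Om g x * cavg Om κT (ext0 Om g) x)] at this
    simp only [ext0_coe] at this
    exact this

end ThreeBodyKeyed

section Combined

variable {B 𝒯 : Type*} [Fintype B] [Fintype 𝒯] [DecidableEq B]

/-- **WP-A, final `Finset`/key form**: the three-body hypothesis in the form
`⟨f, ∑_{b ∈ T} Q_b f⟩ ≤ (#T - 1) ⟨f, f⟩ + ⟨f, E_T f⟩`. -/
theorem gap_keyed_of_avg_le (Om : Finset α)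
    (mem : B → 𝒯 → Prop) [DecidableRel mem] (disj : B → B → Prop) [DecidableRel disj]
    (hcount : ∀ b b' : B, b ≠ b' →
      (univ.filter (fun T : 𝒯 => mem b T ∧ mem b' T)).card = if disj b b' then 0 else 1)
    (κ : B → α → β) (κT : 𝒯 → α → γ)
    (hle : ∀ (T : 𝒯) (b : B), mem b T → ∀ x ∈ Om, ∀ y ∈ Om, κ b x = κ b y → κT T x = κT T y)
    (hQ : ∀ (T : 𝒯) (f : α → ℝ),
        ∑ x ∈ Om, f x * (∑ b ∈ univ.filter (fun b : B => mem b T), cavg Om (κ b) f x)
          ≤ (((univ.filter (fun b : B => mem b T)).card : ℝ) - 1) * ∑ x ∈ Om, f x ^ 2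
            + ∑ x ∈ Om, f x * cavg Om (κT T) f x)
    (h2 : ∀ f : α → ℝ, 0 ≤ ∑ b : B, ∑ b' ∈ univ.filter (fun b' : B => b' ≠ b ∧ disj b b'),
        ∑ x ∈ Om, (f x - cavg Om (κ b) f x) * (f x - cavg Om (κ b') f x))
    (hconn : ∀ f : α → ℝ, (∀ b, ∀ x ∈ Om, ∀ y ∈ Om, κ b x = κ b y → f x = f y) →
        ∀ x ∈ Om, ∀ y ∈ Om, f x = f y)
    (f : α → ℝ) :
    (Om.card : ℝ) * ∑ x ∈ Om, f x ^ 2 - (∑ x ∈ Om, f x) ^ 2
      ≤ (Om.card : ℝ) * ∑ b : B, ∑ x ∈ Om, (f x - cavg Om (κ b) f x) ^ 2 :=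
  gap_keyed Om mem disj hcount κ
    (fun T f => three_body_keyed Om (univ.filter (fun b : B => mem b T)) κ (κT T)
      (fun b hb => hle T b (Finset.mem_filter.mp hb).2) (hQ T) f)
    h2 hconn f

end Combined

end Crest.Agent.Helper26.SW
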