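import Mathlib
import Crest.Agent.Helper26.SW.Keyed

/-!
# Basic identities for `cavg` (helper26, S0453)

Keyed (`Finset`) forms of the identities of `Avg.lean` / `ThreeBody.lean`:
symmetry, idempotence, `⟨f, R f⟩ = ‖R f‖²`, Pythagoras, coarser keys.
-/

set_option autoImplicit false

namespace Crest.Agent.Helper26.SW

open Finset

variable {α β γ : Type*} [DecidableEq β] [DecidableEq γ]

/-- `cavg` only depends on the key of the point. -/
theorem cavg_eq_of_key_eq (Om : Finset α) (κ : α → β) (f : α → ℝ) {x y : α} (h : κ x = κ y) :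
    cavg Om κ f x = cavg Om κ f y := by
  rw [cavg_apply, cavg_apply, h]

/-- Transport of a sum over `Om` to the subtype. -/
theorem sum_coe_Om (Om : Finset α) (F : α → ℝ) : ∑ x : {x // x ∈ Om}, F x.1 = ∑ x ∈ Om, F x :=
  Finset.sum_coe_sort Om F

/-- Symmetry of `cavg` for the counting inner product on `Om`. -/
theorem sum_cavg_mul (Om : Finset α) (κ : α → β) (f g : α → ℝ) :
    ∑ x ∈ Om, cavg Om κ f x * g x = ∑ x ∈ Om, f x * cavg Om κ g x := by
  have h := sum_avg_mul (keySetoid Om κ) (fun x : {x // x ∈ Om} => f x.1) (fun x => g x.1)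
  simp only [avg_keySetoid] at h
  rw [sum_coe_Om Om (fun x => cavg Om κ f x * g x), sum_coe_Om Om (fun x => f x * cavg Om κ g x)]
    at h
  exact h

/-- `⟨f, f - Q f⟩ = ‖f - Q f‖²` on `Om`. -/
theorem sum_mul_sub_cavg (Om : Finset α) (κ : α → β) (f : α → ℝ) :
    ∑ x ∈ Om, f x * (f x - cavg Om κ f x) = ∑ x ∈ Om, (f x - cavg Om κ f x) ^ 2 := by
  have h := sum_mul_sub_avg (keySetoid Om κ) (fun x : {x // x ∈ Om} => f x.1)
  simp only [avg_keySetoid] at h
  rw [sum_coe_Om Om (fun x => f x * (f x - cavg Om κ f x)),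
    sum_coe_Om Om (fun x => (f x - cavg Om κ f x) ^ 2)] at h
  exact h

/-- The sum of `cavg f` over `Om` is the sum of `f`. -/
theorem sum_cavg (Om : Finset α) (κ : α → β) (f : α → ℝ) :
    ∑ x ∈ Om, cavg Om κ f x = ∑ x ∈ Om, f x := by
  have h := sum_avg (keySetoid Om κ) (fun x : {x // x ∈ Om} => f x.1)
  simp only [avg_keySetoid] at h
  rw [sum_coe_Om Om (fun x => cavg Om κ f x), sum_coe_Om Om f] at h
  exact h

/-- Pythagoras on `Om`: `‖f - Q f‖² = ‖f‖² - ‖Q f‖²`. -/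
theorem sum_sq_sub_cavg (Om : Finset α) (κ : α → β) (f : α → ℝ) :
    ∑ x ∈ Om, (f x - cavg Om κ f x) ^ 2 = ∑ x ∈ Om, f x ^ 2 - ∑ x ∈ Om, cavg Om κ f x ^ 2 := by
  have h := sum_sq_sub_avg (keySetoid Om κ) (fun x : {x // x ∈ Om} => f x.1)
  simp only [avg_keySetoid] at h
  rw [sum_coe_Om Om (fun x => (f x - cavg Om κ f x) ^ 2), sum_coe_Om Om (fun x => f x ^ 2),
    sum_coe_Om Om (fun x => cavg Om κ f x ^ 2)] at h
  exact h

/-- Idempotence of `cavg` on `Om`. -/
theorem cavg_cavg (Om : Finset α) (κ : α → β) (f : α → ℝ) {x : α} (hx : x ∈ Om) :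
    cavg Om κ (cavg Om κ f) x = cavg Om κ f x := by
  have h := congrFun (avg_avg (keySetoid Om κ) (fun x : {x // x ∈ Om} => f x.1)) ⟨x, hx⟩
  have e : avg (keySetoid Om κ) (fun x : {x // x ∈ Om} => f x.1)
      = fun y : {x // x ∈ Om} => cavg Om κ f y.1 := by
    funext y
    rw [avg_keySetoid]
  rw [e, avg_keySetoid] at h
  exact h

/-- For a coarser key `κ'`: `Q' Q = Q'` on `Om`. -/
theorem cavg_cavg_of_le (Om : Finset α) (κ : α → β) (κ' : α → γ)
    (hle : ∀ x ∈ Om, ∀ y ∈ Om, κ x = κ y → κ' x = κ' y) (f : α → ℝ) {x : α} (hx : x ∈ Om) :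
    cavg Om κ' (cavg Om κ f) x = cavg Om κ' f x := by
  have h := congrFun (avg_avg_of_le' (keySetoid Om κ) (keySetoid Om κ')
    (fun x y hxy => hle x.1 x.2 y.1 y.2 hxy) (fun x : {x // x ∈ Om} => f x.1)) ⟨x, hx⟩
  have e : avg (keySetoid Om κ) (fun x : {x // x ∈ Om} => f x.1)
      = fun y : {x // x ∈ Om} => cavg Om κ f y.1 := by
    funext y
    rw [avg_keySetoid]
  rw [e, avg_keySetoid, avg_keySetoid] at h
  exact h

/-- For a coarser key `κ'`: `Q Q' = Q'` on `Om`. -/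
theorem cavg_cavg_of_le' (Om : Finset α) (κ : α → β) (κ' : α → γ)
    (hle : ∀ x ∈ Om, ∀ y ∈ Om, κ x = κ y → κ' x = κ' y) (f : α → ℝ) {x : α} (hx : x ∈ Om) :
    cavg Om κ (cavg Om κ' f) x = cavg Om κ' f x := by
  have h := congrFun (avg_avg_of_le (keySetoid Om κ) (keySetoid Om κ')
    (fun x y hxy => hle x.1 x.2 y.1 y.2 hxy) (fun x : {x // x ∈ Om} => f x.1)) ⟨x, hx⟩
  have e : avg (keySetoid Om κ') (fun x : {x // x ∈ Om} => f x.1)
      = fun y : {x // x ∈ Om} => cavg Om κ' f y.1 := by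
    funext y
    rw [avg_keySetoid]
  rw [e, avg_keySetoid] at h
  exact h

end Crest.Agent.Helper26.SW
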