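import Mathlib
import Crest.Agent.Helper26.SW.Keyed

/-!
# WP-A of S0453 at pairs/triples of vertices (helper26)

The instantiation of `gap_keyed_of_avg_le` at `B = {s : Finset V // s.card = 2}`,
`𝒯 = {s : Finset V // s.card = 3}`, keys `κ U` indexed by finsets `U` of vertices, with the
three-body hypothesis in the explicit three-term form
`⟨f, Q_ab f + Q_ac f + Q_bc f⟩ ≤ 2 ⟨f, f⟩ + ⟨f, E_abc f⟩`.
-/

set_option autoImplicit false

namespace Crest.Agent.Helper26.SW

open Finset

variable {V : Type*} [Fintype V] [DecidableEq V]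

omit [Fintype V] in
/-- The 2-subsets of `{a, b, c}`. -/
theorem powersetCard_two_triple (a b c : V) (hab : a ≠ b) (hac : a ≠ c) (hbc : b ≠ c) :
    ({a, b, c} : Finset V).powersetCard 2 = {{a, b}, {a, c}, {b, c}} := by
  ext s
  simp only [Finset.mem_powersetCard, Finset.mem_insert, Finset.mem_singleton]
  constructor
  · rintro ⟨hs, hcard⟩
    obtain ⟨x, y, hxy, rfl⟩ := Finset.card_eq_two.mp hcard
    have hx : x ∈ ({a, b, c} : Finset V) := hs (by simp)
    have hy : y ∈ ({a, b, c} : Finset V) := hs (by simp)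
    simp only [Finset.mem_insert, Finset.mem_singleton] at hx hy
    rcases hx with rfl | rfl | rfl <;> rcases hy with rfl | rfl | rfl
    · exact absurd rfl hxy
    · exact Or.inl rfl
    · exact Or.inr (Or.inl rfl)
    · exact Or.inl (Finset.pair_comm _ _)
    · exact absurd rfl hxy
    · exact Or.inr (Or.inr rfl)
    · exact Or.inr (Or.inl (Finset.pair_comm _ _))
    · exact Or.inr (Or.inr (Finset.pair_comm _ _))
    · exact absurd rfl hxy
  · rintro (rfl | rfl | rfl)
    · refine ⟨?_, Finset.card_pair hab⟩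
      intro x hx
      simp only [Finset.mem_insert, Finset.mem_singleton] at hx ⊢
      tauto
    · refine ⟨?_, Finset.card_pair hac⟩
      intro x hx
      simp only [Finset.mem_insert, Finset.mem_singleton] at hx ⊢
      tauto
    · refine ⟨?_, Finset.card_pair hbc⟩
      intro x hx
      simp only [Finset.mem_insert, Finset.mem_singleton] at hx ⊢
      tauto

/-- Sum over the pairs inside a finset, as a sum over `powersetCard 2`. -/
theorem sum_pairs_subset {M : Type*} [AddCommMonoid M] (T : Finset V) (F : Finset V → M) :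
    ∑ p ∈ univ.filter (fun p : {s : Finset V // s.card = 2} => (p : Finset V) ⊆ T), F p.1
      = ∑ s ∈ T.powersetCard 2, F s := by
  have h : (univ.filter (fun p : {s : Finset V // s.card = 2} => (p : Finset V) ⊆ T)).map
      (Function.Embedding.subtype _) = T.powersetCard 2 := by
    ext s
    simp only [Finset.mem_map, Finset.mem_filter, Finset.mem_univ, true_and,
      Function.Embedding.coe_subtype, Finset.mem_powersetCard]
    constructor
    · rintro ⟨p, hp, rfl⟩
      exact ⟨hp, p.2⟩
    · rintro ⟨hs, hc⟩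
      exact ⟨⟨s, hc⟩, hs, rfl⟩
  rw [← h, Finset.sum_map]
  rfl

/-- Sum over the pairs inside `{a, b, c}`. -/
theorem sum_pairs_triple {M : Type*} [AddCommMonoid M] (a b c : V) (hab : a ≠ b) (hac : a ≠ c)
    (hbc : b ≠ c) (F : Finset V → M) :
    ∑ p ∈ univ.filter (fun p : {s : Finset V // s.card = 2} =>
        (p : Finset V) ⊆ ({a, b, c} : Finset V)), F p.1
      = F {a, b} + F {a, c} + F {b, c} := by
  rw [sum_pairs_subset, powersetCard_two_triple a b c hab hac hbc]
  have h1 : ({a, b} : Finset V) ∉ ({{a, c}, {b, c}} : Finset (Finset V)) := by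
    simp only [Finset.mem_insert, Finset.mem_singleton, not_or]
    constructor
    · intro h
      have : b ∈ ({a, c} : Finset V) := by rw [← h]; simp
      simp only [Finset.mem_insert, Finset.mem_singleton] at this
      rcases this with h | h
      · exact hab h.symm
      · exact hbc h
    · intro h
      have : a ∈ ({b, c} : Finset V) := by rw [← h]; simp
      simp only [Finset.mem_insert, Finset.mem_singleton] at this
      rcases this with h | h
      · exact hab h
      · exact hac h
  have h2 : ({a, c} : Finset V) ∉ ({{b, c}} : Finset (Finset V)) := by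
    simp only [Finset.mem_singleton]
    intro h
    have : a ∈ ({b, c} : Finset V) := by rw [← h]; simp
    simp only [Finset.mem_insert, Finset.mem_singleton] at this
    rcases this with h | h
    · exact hab h
    · exact hac h
  rw [Finset.sum_insert h1, Finset.sum_insert h2, Finset.sum_singleton, add_assoc]

/-- Number of pairs inside a triple. -/
theorem card_pairs_subset_triple (T : {s : Finset V // s.card = 3}) :
    (univ.filter (fun p : {s : Finset V // s.card = 2} => (p : Finset V) ⊆ T)).card = 3 := by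
  have h := sum_pairs_subset (M := ℕ) (T : Finset V) (fun _ => 1)
  rw [Finset.sum_const, Finset.sum_const, smul_eq_mul, mul_one, smul_eq_mul, mul_one,
    Finset.card_powersetCard, T.2] at h
  rw [h]
  rfl

variable {α β γ : Type*} [DecidableEq β] [DecidableEq γ]

/-- **WP-A at pairs and triples of vertices.**  `κ U` is the key of the relation `~_U` for a
pair `U`, `κT U` for a triple `U`. -/
theorem gap_pairs (Om : Finset α) (κ : Finset V → α → β) (κT : Finset V → α → γ)
    (hle : ∀ (U T : Finset V), U.card = 2 → T.card = 3 → U ⊆ T →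
        ∀ x ∈ Om, ∀ y ∈ Om, κ U x = κ U y → κT T x = κT T y)
    (h3 : ∀ (a b c : V), a ≠ b → a ≠ c → b ≠ c → ∀ f : α → ℝ,
        ∑ x ∈ Om, f x * (cavg Om (κ {a, b}) f x + cavg Om (κ {a, c}) f x + cavg Om (κ {b, c}) f x)
          ≤ 2 * ∑ x ∈ Om, f x ^ 2 + ∑ x ∈ Om, f x * cavg Om (κT {a, b, c}) f x)
    (h2 : ∀ f : α → ℝ, 0 ≤ ∑ p : {s : Finset V // s.card = 2},
        ∑ p' ∈ univ.filter (fun p' : {s : Finset V // s.card = 2} =>
            p' ≠ p ∧ Disjoint (p : Finset V) (p' : Finset V)),
          ∑ x ∈ Om, (f x - cavg Om (κ p.1) f x) * (f x - cavg Om (κ p'.1) f x))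
    (hconn : ∀ f : α → ℝ, (∀ U : Finset V, U.card = 2 → ∀ x ∈ Om, ∀ y ∈ Om,
        κ U x = κ U y → f x = f y) → ∀ x ∈ Om, ∀ y ∈ Om, f x = f y)
    (f : α → ℝ) :
    (Om.card : ℝ) * ∑ x ∈ Om, f x ^ 2 - (∑ x ∈ Om, f x) ^ 2
      ≤ (Om.card : ℝ) * ∑ p : {s : Finset V // s.card = 2},
          ∑ x ∈ Om, (f x - cavg Om (κ p.1) f x) ^ 2 := by
  classical
  refine gap_keyed_of_avg_le (B := {s : Finset V // s.card = 2})
    (𝒯 := {s : Finset V // s.card = 3}) Om
    (fun b T => (b : Finset V) ⊆ (T : Finset V))
    (fun b b' => Disjoint (b : Finset V) (b' : Finset V))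
    (fun b b' hne => pairs_triples_count b b' hne)
    (fun p => κ p.1) (fun T => κT T.1) ?_ ?_ h2 ?_ f
  · intro T b hb x hx y hy hxy
    exact hle b.1 T.1 b.2 T.2 hb x hx y hy hxy
  · intro T f
    rw [card_pairs_subset_triple T]
    obtain ⟨a, b, c, hab, hac, hbc, hT⟩ := Finset.card_eq_three.mp T.2
    have e : ∀ x, ∑ p ∈ univ.filter (fun p : {s : Finset V // s.card = 2} =>
          (p : Finset V) ⊆ (T : Finset V)), cavg Om (κ p.1) f x
        = cavg Om (κ {a, b}) f x + cavg Om (κ {a, c}) f x + cavg Om (κ {b, c}) f x := by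
      intro x
      rw [hT]
      exact sum_pairs_triple a b c hab hac hbc (fun U => cavg Om (κ U) f x)
    simp only [e]
    have := h3 a b c hab hac hbc f
    rw [hT]
    norm_num
    exact this
  · intro f hf
    exact hconn f (fun U hU x hx y hy hxy => hf ⟨U, hU⟩ x hx y hy hxy)

end Crest.Agent.Helper26.SW
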