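import Mathlib
import Crest.Agent.Helper26.SW.Pairs

/-!
# Sums over ordered tuples versus sums over 2-subsets (helper26, S0453 assembly)

* `sum_ordered_pairs`: `∑ a, ∑ b, if a ≠ b then H {a, b} else 0 = 2 • ∑ p : 2-subsets, H p`.
* `sum_ordered_disjoint_pairs`: the sum over ordered 4-tuples `(a, b, c, e)` with `a ≠ b`,
  `c ≠ e`, `{a, b}` disjoint from `{c, e}` of `F {a, b} {c, e}` is `4 •` the sum over ordered pairs
  of disjoint 2-subsets.
* `sum_pairs_univ`: sum over the subtype of 2-subsets = sum over `univ.powersetCard 2`.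
* keyed forms of `sum_mul_sub_avg` etc.
-/

set_option autoImplicit false

namespace Crest.Agent.Helper26.SW

open Finset

variable {V : Type*} [Fintype V] [DecidableEq V]

omit [Fintype V] in
theorem finset_pair_eq_pair_iff {a b u v : V} :
    ({a, b} : Finset V) = {u, v} ↔ (a = u ∧ b = v) ∨ (a = v ∧ b = u) := by
  rw [← Finset.coe_inj]
  push_cast
  exact Set.pair_eq_pair_iff

/-- Each 2-subset is the image of exactly two ordered pairs. -/
theorem card_filter_pair_eq (y : Finset V) (hy : y.card = 2) :
    ((univ : Finset (V × V)).filter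
      (fun x => x.1 ≠ x.2 ∧ ({x.1, x.2} : Finset V) = y)).card = 2 := by
  obtain ⟨u, v, huv, rfl⟩ := Finset.card_eq_two.mp hy
  have : (univ : Finset (V × V)).filter
      (fun x => x.1 ≠ x.2 ∧ ({x.1, x.2} : Finset V) = {u, v}) = {(u, v), (v, u)} := by
    ext ⟨a, b⟩
    simp only [Finset.mem_filter, Finset.mem_univ, true_and, Finset.mem_insert,
      Finset.mem_singleton, Prod.mk.injEq, finset_pair_eq_pair_iff]
    constructor
    · rintro ⟨-, h⟩
      exact h
    · rintro (⟨rfl, rfl⟩ | ⟨rfl, rfl⟩)
      · exact ⟨huv, Or.inl ⟨rfl, rfl⟩⟩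
      · exact ⟨huv.symm, Or.inr ⟨rfl, rfl⟩⟩
  rw [this, Finset.card_pair]
  intro h
  exact huv (Prod.mk.injEq _ _ _ _ ▸ h).1

/-- Sum over the subtype of 2-subsets as a sum over `univ.powersetCard 2`. -/
theorem sum_pairs_univ {M : Type*} [AddCommMonoid M] (H : Finset V → M) :
    ∑ p : {s : Finset V // s.card = 2}, H p.1 = ∑ s ∈ (univ : Finset V).powersetCard 2, H s := by
  rw [← sum_pairs_subset (univ : Finset V) H]
  refine Finset.sum_congr ?_ (fun _ _ => rfl)
  ext p
  simp

/-- Sum over ordered pairs of distinct elements = twice the sum over 2-subsets. -/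
theorem sum_ordered_pairs {M : Type*} [AddCommMonoid M] (H : Finset V → M) :
    ∑ a : V, ∑ b : V, (if a ≠ b then H {a, b} else 0)
      = 2 • ∑ p : {s : Finset V // s.card = 2}, H p.1 := by
  have e1 : ∑ a : V, ∑ b : V, (if a ≠ b then H {a, b} else 0)
      = ∑ x ∈ (univ : Finset (V × V)).filter (fun x => x.1 ≠ x.2), H {x.1, x.2} := by
    rw [Finset.sum_filter, Fintype.sum_prod_type]
  have hmaps : ∀ x ∈ (univ : Finset (V × V)).filter (fun x => x.1 ≠ x.2),
      ({x.1, x.2} : Finset V) ∈ (univ : Finset V).powersetCard 2 := by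
    intro x hx
    rw [Finset.mem_powersetCard]
    exact ⟨Finset.subset_univ _, Finset.card_pair (Finset.mem_filter.mp hx).2⟩
  rw [e1, ← Finset.sum_fiberwise_of_maps_to hmaps, sum_pairs_univ, Finset.smul_sum]
  refine Finset.sum_congr rfl (fun y hy => ?_)
  have hy2 : y.card = 2 := (Finset.mem_powersetCard.mp hy).2
  have e2 : ∑ x ∈ ((univ : Finset (V × V)).filter (fun x => x.1 ≠ x.2)).filter
        (fun x => ({x.1, x.2} : Finset V) = y), H {x.1, x.2}
      = ∑ _x ∈ ((univ : Finset (V × V)).filter (fun x => x.1 ≠ x.2)).filter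
        (fun x => ({x.1, x.2} : Finset V) = y), H y :=
    Finset.sum_congr rfl (fun x hx => by rw [(Finset.mem_filter.mp hx).2])
  rw [e2, Finset.sum_const, Finset.filter_filter, card_filter_pair_eq y hy2]

/-- Sum over ordered 4-tuples forming two disjoint pairs = four times the sum over ordered pairs
of disjoint 2-subsets. -/
theorem sum_ordered_disjoint_pairs {M : Type*} [AddCommMonoid M]
    (F : Finset V → Finset V → M) :
    ∑ a : V, ∑ b : V, ∑ c : V, ∑ e : V,
        (if a ≠ b ∧ c ≠ e ∧ Disjoint ({a, b} : Finset V) {c, e} then F {a, b} {c, e} else 0)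
      = 4 • ∑ p : {s : Finset V // s.card = 2},
          ∑ p' ∈ univ.filter (fun p' : {s : Finset V // s.card = 2} =>
              p' ≠ p ∧ Disjoint (p : Finset V) (p' : Finset V)), F p.1 p'.1 := by
  -- inner sums
  set H : Finset V → M := fun P => ∑ c : V, ∑ e : V,
    (if c ≠ e then (if Disjoint P ({c, e} : Finset V) then F P {c, e} else 0) else 0) with hH
  have e1 : ∀ a b : V, ∑ c : V, ∑ e : V,
        (if a ≠ b ∧ c ≠ e ∧ Disjoint ({a, b} : Finset V) {c, e} then F {a, b} {c, e} else 0)
      = if a ≠ b then H {a, b} else 0 := by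
    intro a b
    by_cases hab : a ≠ b
    · rw [if_pos hab]
      simp only [hH]
      refine Finset.sum_congr rfl (fun c _ => Finset.sum_congr rfl (fun e _ => ?_))
      by_cases hce : c ≠ e
      · by_cases hd : Disjoint ({a, b} : Finset V) {c, e}
        · rw [if_pos ⟨hab, hce, hd⟩, if_pos hce, if_pos hd]
        · rw [if_neg (fun h => hd h.2.2), if_pos hce, if_neg hd]
      · rw [if_neg (fun h => hce h.2.1), if_neg hce]
    · rw [if_neg hab]
      refine Finset.sum_eq_zero (fun c _ => Finset.sum_eq_zero (fun e _ => ?_))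
      rw [if_neg (fun h => hab h.1)]
  have e2 : ∀ P : Finset V, H P = 2 • ∑ p' : {s : Finset V // s.card = 2},
      (if Disjoint P (p' : Finset V) then F P p'.1 else 0) := by
    intro P
    exact sum_ordered_pairs (fun Q => if Disjoint P Q then F P Q else 0)
  simp only [e1]
  rw [sum_ordered_pairs H]
  simp only [e2]
  rw [← Finset.smul_sum, smul_smul]
  norm_num
  congr 1
  refine Finset.sum_congr rfl (fun p _ => ?_)
  rw [← Finset.sum_filter]
  refine Finset.sum_congr ?_ (fun _ _ => rfl)
  ext p'
  simp only [Finset.mem_filter, Finset.mem_univ, true_and]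
  constructor
  · intro h
    refine ⟨?_, h⟩
    rintro rfl
    have hne : (p' : Finset V).Nonempty := by
      rw [← Finset.card_pos, p'.2]; norm_num
    obtain ⟨x, hx⟩ := hne
    exact Finset.disjoint_left.mp h hx hx
  · exact fun h => h.2

end Crest.Agent.Helper26.SW
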