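import Mathlib
import Crest.Agent.Helper26.SW.Tuples
import Crest.Agent.Helper26.SW.Keyed2
import Crest.Agent.Helper65.Switch.Classes

/-!
# S0453, ASM: assembly on `Ω = realizations d` (helper26)

On helper65's model layer (`offU`, `cls`, `Qavg`, `Rop`):

`var_le_sum_Rop`: the three-body inequality (3B-Om) and the disjoint-pair positivity (DP-Om)
give `N ∑ f² - (∑ f)² ≤ N ∑_{pairs U} ∑_G f G * Rop d U f G` (connectivity is helper65's
`const_of_switch_invariant`).

Variants of the hypotheses: (3B-Om) in the `Qavg` three-term form, in the `Rop` three-term form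
or as a sum over `T.powersetCard 2`; (DP-Om) over ordered 4-tuples or over ordered pairs of
disjoint 2-subsets.  `poincare_of_T2`: with (T2-Om) this is the hypothesis of helper65's
`result_of_switchEnergy`.
-/

set_option autoImplicit false

namespace Crest.Agent.Helper26.SW

open Finset Crest.SwitchChain
open Crest.Agent.Helper65.Switch (offU Qavg Rop IsSwitch adj mkE pm2 switchEnergy)

variable {n : ℕ}

/-- helper65's `Qavg` is `cavg` for the key `offU U`. -/
theorem Qavg_eq_cavg (d : Fin n → ℕ) (U : Finset (Fin n)) (f : Finset (Edge n) → ℝ)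
    (G : Finset (Edge n)) : Qavg d U f G = cavg (realizations d) (offU U) f G := rfl

theorem Rop_eq_cavg (d : Fin n → ℕ) (U : Finset (Fin n)) (f : Finset (Edge n) → ℝ)
    (G : Finset (Edge n)) : Rop d U f G = f G - cavg (realizations d) (offU U) f G := rfl

/-- A switch does not change the edges off one of its diagonals. -/
theorem exists_pair_of_isSwitch {G G' : Finset (Edge n)} (h : IsSwitch G G') :
    ∃ U : Finset (Fin n), U.card = 2 ∧ offU U G' = offU U G := by
  obtain ⟨p, q, r, s, hpq, hpr, hps, hqr, hqs, hrs, -, -, rfl⟩ :=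
    Crest.Agent.Helper65.Switch.IsSwitch.exists_pm2 h
  refine ⟨{p, s}, Finset.card_pair hps, ?_⟩
  rw [Crest.Agent.Helper65.Switch.offU_eq_iff]
  intro x y hx hy
  simp only [Finset.mem_insert, Finset.mem_singleton, not_or] at hx hy
  by_cases hxy : x = y
  · subst hxy
    exact ⟨fun hh => absurd hh Crest.Agent.Helper65.Switch.not_adj_self,
      fun hh => absurd hh Crest.Agent.Helper65.Switch.not_adj_self⟩
  · rw [Crest.Agent.Helper65.Switch.adj_iff hxy, Crest.Agent.Helper65.Switch.adj_iff hxy,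
      Crest.Agent.Helper65.Switch.mem_switch hpq hpr hqs hrs]
    have n1 : mkE x y hxy ≠ mkE p q hpq := by
      rw [Ne, Crest.Agent.Helper65.Switch.mkE_eq_iff]
      rintro (⟨h1, -⟩ | ⟨-, h2⟩)
      · exact hx.1 h1
      · exact hy.1 h2
    have n2 : mkE x y hxy ≠ mkE r s hrs := by
      rw [Ne, Crest.Agent.Helper65.Switch.mkE_eq_iff]
      rintro (⟨-, h2⟩ | ⟨h1, -⟩)
      · exact hy.2 h2
      · exact hx.2 h1
    have n3 : mkE x y hxy ≠ mkE p r hpr := by
      rw [Ne, Crest.Agent.Helper65.Switch.mkE_eq_iff]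
      rintro (⟨h1, -⟩ | ⟨-, h2⟩)
      · exact hx.1 h1
      · exact hy.1 h2
    have n4 : mkE x y hxy ≠ mkE q s hqs := by
      rw [Ne, Crest.Agent.Helper65.Switch.mkE_eq_iff]
      rintro (⟨-, h2⟩ | ⟨h1, -⟩)
      · exact hy.2 h2
      · exact hx.2 h1
    constructor
    · rintro (⟨hm, -, -⟩ | h1 | h1)
      · exact hm
      · exact absurd h1 n3
      · exact absurd h1 n4
    · intro hm
      exact Or.inl ⟨hm, n1, n2⟩

/-- (T3) in the form used by `gap_pairs`: a function constant on all pair classes is constant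
on the realizations. -/
theorem const_of_pair_classes (d : Fin n → ℕ) (f : Finset (Edge n) → ℝ)
    (hf : ∀ U : Finset (Fin n), U.card = 2 → ∀ x ∈ realizations d, ∀ y ∈ realizations d,
      offU U x = offU U y → f x = f y) :
    ∀ x ∈ realizations d, ∀ y ∈ realizations d, f x = f y := by
  refine Crest.Agent.Helper65.Switch.const_of_switch_invariant f ?_
  intro G hG G' hsw
  obtain ⟨U, hU, hoff⟩ := exists_pair_of_isSwitch hsw
  exact hf U hU G hG G' (hsw.mem_realizations hG) hoff.symm

/-- `~_T` is coarser than `~_U` for `U ⊆ T`. -/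
theorem offU_coarser {U T : Finset (Fin n)} (hUT : U ⊆ T) {x y : Finset (Edge n)}
    (h : offU U x = offU U y) : offU T x = offU T y :=
  Crest.Agent.Helper65.Switch.offU_mono hUT h

/-- **ASM, main form.**  (3B-Om) in the three-term `Qavg` form and (DP-Om) over ordered pairs of
disjoint 2-subsets give `N ∑ f² - (∑ f)² ≤ N ∑_{pairs U} ∑_G f G * Rop d U f G`. -/
theorem var_le_sum_Rop_of_pairs (d : Fin n → ℕ)
    (h3B : ∀ a b c : Fin n, a ≠ b → a ≠ c → b ≠ c → ∀ f : Finset (Edge n) → ℝ,
        ∑ G ∈ realizations d,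
            f G * (Qavg d {a, b} f G + Qavg d {a, c} f G + Qavg d {b, c} f G)
          ≤ 2 * ∑ G ∈ realizations d, f G ^ 2
            + ∑ G ∈ realizations d, f G * Qavg d {a, b, c} f G)
    (hDP : ∀ f : Finset (Edge n) → ℝ, 0 ≤ ∑ p : {s : Finset (Fin n) // s.card = 2},
        ∑ p' ∈ univ.filter (fun p' : {s : Finset (Fin n) // s.card = 2} =>
            p' ≠ p ∧ Disjoint (p : Finset (Fin n)) (p' : Finset (Fin n))),
          ∑ G ∈ realizations d, Rop d p.1 f G * Rop d p'.1 f G)
    (f : Finset (Edge n) → ℝ) :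
    ((realizations d).card : ℝ) * ∑ G ∈ realizations d, f G ^ 2
        - (∑ G ∈ realizations d, f G) ^ 2
      ≤ ((realizations d).card : ℝ) * ∑ U ∈ (univ : Finset (Fin n)).powersetCard 2,
          ∑ G ∈ realizations d, f G * Rop d U f G := by
  have key := gap_pairs (V := Fin n) (realizations d) (fun U => offU U) (fun T => offU T)
    (fun U T _ _ hUT x _ y _ hxy => offU_coarser hUT hxy) h3B hDP
    (const_of_pair_classes d) f
  have e : ∑ p : {s : Finset (Fin n) // s.card = 2},
        ∑ x ∈ realizations d, (f x - cavg (realizations d) (offU p.1) f x) ^ 2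
      = ∑ U ∈ (univ : Finset (Fin n)).powersetCard 2,
          ∑ G ∈ realizations d, f G * Rop d U f G := by
    rw [sum_pairs_univ (fun U => ∑ x ∈ realizations d,
      (f x - cavg (realizations d) (offU U) f x) ^ 2)]
    refine Finset.sum_congr rfl (fun U _ => ?_)
    rw [← sum_mul_sub_cavg]
    rfl
  rw [e] at key
  exact key

/-- **ASM with (DP-Om) over ordered 4-tuples** `(a, b, c, e)`, `a ≠ b`, `c ≠ e`,
`{a, b}` disjoint from `{c, e}`. -/
theorem var_le_sum_Rop (d : Fin n → ℕ)
    (h3B : ∀ a b c : Fin n, a ≠ b → a ≠ c → b ≠ c → ∀ f : Finset (Edge n) → ℝ,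
        ∑ G ∈ realizations d,
            f G * (Qavg d {a, b} f G + Qavg d {a, c} f G + Qavg d {b, c} f G)
          ≤ 2 * ∑ G ∈ realizations d, f G ^ 2
            + ∑ G ∈ realizations d, f G * Qavg d {a, b, c} f G)
    (hDP : ∀ f : Finset (Edge n) → ℝ, 0 ≤ ∑ a : Fin n, ∑ b : Fin n, ∑ c : Fin n, ∑ e : Fin n,
        (if a ≠ b ∧ c ≠ e ∧ Disjoint ({a, b} : Finset (Fin n)) {c, e} then
          ∑ G ∈ realizations d, Rop d {a, b} f G * Rop d {c, e} f G else 0))
    (f : Finset (Edge n) → ℝ) :
    ((realizations d).card : ℝ) * ∑ G ∈ realizations d, f G ^ 2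
        - (∑ G ∈ realizations d, f G) ^ 2
      ≤ ((realizations d).card : ℝ) * ∑ U ∈ (univ : Finset (Fin n)).powersetCard 2,
          ∑ G ∈ realizations d, f G * Rop d U f G := by
  refine var_le_sum_Rop_of_pairs d h3B (fun g => ?_) f
  have h := hDP g
  rw [sum_ordered_disjoint_pairs
    (fun P Q => ∑ G ∈ realizations d, Rop d P g G * Rop d Q g G)] at h
  rw [nsmul_eq_mul] at h
  have h4 : (0 : ℝ) < ((4 : ℕ) : ℝ) := by norm_num
  exact nonneg_of_mul_nonneg_right h h4

/-- (3B-Om) in the `Rop` three-term form implies the `Qavg` three-term form. -/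
theorem threeBody_Qavg_of_Rop (d : Fin n → ℕ) (a b c : Fin n) (f : Finset (Edge n) → ℝ)
    (h : ∑ G ∈ realizations d, f G * Rop d {a, b, c} f G
        ≤ ∑ G ∈ realizations d,
            f G * (Rop d {a, b} f G + Rop d {a, c} f G + Rop d {b, c} f G)) :
    ∑ G ∈ realizations d,
        f G * (Qavg d {a, b} f G + Qavg d {a, c} f G + Qavg d {b, c} f G)
      ≤ 2 * ∑ G ∈ realizations d, f G ^ 2
        + ∑ G ∈ realizations d, f G * Qavg d {a, b, c} f G := by
  have e1 : ∑ G ∈ realizations d, f G * Rop d {a, b, c} f G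
      = ∑ G ∈ realizations d, f G ^ 2 - ∑ G ∈ realizations d, f G * Qavg d {a, b, c} f G := by
    rw [← Finset.sum_sub_distrib]
    refine Finset.sum_congr rfl (fun G _ => ?_)
    rw [Crest.Agent.Helper65.Switch.Rop_def]
    ring
  have e2 : ∑ G ∈ realizations d,
        f G * (Rop d {a, b} f G + Rop d {a, c} f G + Rop d {b, c} f G)
      = 3 * ∑ G ∈ realizations d, f G ^ 2 - ∑ G ∈ realizations d,
        f G * (Qavg d {a, b} f G + Qavg d {a, c} f G + Qavg d {b, c} f G) := by
    rw [Finset.mul_sum, ← Finset.sum_sub_distrib]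
    refine Finset.sum_congr rfl (fun G _ => ?_)
    rw [Crest.Agent.Helper65.Switch.Rop_def, Crest.Agent.Helper65.Switch.Rop_def,
      Crest.Agent.Helper65.Switch.Rop_def]
    ring
  rw [e1, e2] at h
  linarith

/-- **ASM with (3B-Om) in the lead's form**: for every 3-set `T`,
`∑_G f G * Rop d T f G ≤ ∑_{U ∈ T.powersetCard 2} ∑_G f G * Rop d U f G`. -/
theorem var_le_sum_Rop' (d : Fin n → ℕ)
    (h3B : ∀ T : Finset (Fin n), T.card = 3 → ∀ f : Finset (Edge n) → ℝ,
        ∑ G ∈ realizations d, f G * Rop d T f G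
          ≤ ∑ U ∈ T.powersetCard 2, ∑ G ∈ realizations d, f G * Rop d U f G)
    (hDP : ∀ f : Finset (Edge n) → ℝ, 0 ≤ ∑ a : Fin n, ∑ b : Fin n, ∑ c : Fin n, ∑ e : Fin n,
        (if a ≠ b ∧ c ≠ e ∧ Disjoint ({a, b} : Finset (Fin n)) {c, e} then
          ∑ G ∈ realizations d, Rop d {a, b} f G * Rop d {c, e} f G else 0))
    (f : Finset (Edge n) → ℝ) :
    ((realizations d).card : ℝ) * ∑ G ∈ realizations d, f G ^ 2
        - (∑ G ∈ realizations d, f G) ^ 2
      ≤ ((realizations d).card : ℝ) * ∑ U ∈ (univ : Finset (Fin n)).powersetCard 2,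
          ∑ G ∈ realizations d, f G * Rop d U f G := by
  refine var_le_sum_Rop d (fun a b c hab hac hbc g => ?_) hDP f
  apply threeBody_Qavg_of_Rop
  have hT : ({a, b, c} : Finset (Fin n)).card = 3 := by
    rw [Finset.card_insert_of_notMem (by simp [hab, hac]), Finset.card_pair hbc]
  have h := h3B {a, b, c} hT g
  rw [powersetCard_two_triple a b c hab hac hbc] at h
  have h1 : ({a, b} : Finset (Fin n)) ∉ ({{a, c}, {b, c}} : Finset (Finset (Fin n))) := by
    intro hm
    rw [Finset.mem_insert, Finset.mem_singleton, finset_pair_eq_pair_iff,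
      finset_pair_eq_pair_iff] at hm
    rcases hm with (⟨-, h⟩ | ⟨h, -⟩) | (⟨h, -⟩ | ⟨h, -⟩)
    · exact hbc h
    · exact hac h
    · exact hab h
    · exact hac h
  have h2 : ({a, c} : Finset (Fin n)) ∉ ({{b, c}} : Finset (Finset (Fin n))) := by
    intro hm
    rw [Finset.mem_singleton, finset_pair_eq_pair_iff] at hm
    rcases hm with ⟨h, -⟩ | ⟨h, -⟩
    · exact hab h
    · exact hac h
  rw [Finset.sum_insert h1, Finset.sum_insert h2, Finset.sum_singleton] at h
  calc ∑ G ∈ realizations d, g G * Rop d {a, b, c} g G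
      ≤ _ := h
    _ = ∑ G ∈ realizations d,
          g G * (Rop d {a, b} g G + Rop d {a, c} g G + Rop d {b, c} g G) := by
        rw [← Finset.sum_add_distrib, ← Finset.sum_add_distrib]
        exact Finset.sum_congr rfl (fun G _ => by ring)

/-- **Poincaré inequality for the switch energy from ASM + (T2-Om)**: this is hypothesis `hE` of
helper65's `result_of_switchEnergy` with the constant `c`. -/
theorem poincare_of_T2 (d : Fin n → ℕ) (c : ℝ)
    (hvar : ∀ f : Finset (Edge n) → ℝ,
        ((realizations d).card : ℝ) * ∑ G ∈ realizations d, f G ^ 2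
            - (∑ G ∈ realizations d, f G) ^ 2
          ≤ ((realizations d).card : ℝ) * ∑ U ∈ (univ : Finset (Fin n)).powersetCard 2,
              ∑ G ∈ realizations d, f G * Rop d U f G)
    (hT2 : ∀ f : Finset (Edge n) → ℝ,
        ∑ U ∈ (univ : Finset (Fin n)).powersetCard 2, ∑ G ∈ realizations d, f G * Rop d U f G
          ≤ c * switchEnergy d f)
    (f : Finset (Edge n) → ℝ) :
    ((realizations d).card : ℝ) * (∑ G ∈ realizations d, f G ^ 2)
        - (∑ G ∈ realizations d, f G) ^ 2
      ≤ c * (realizations d).card * switchEnergy d f := by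
  have h1 := hvar f
  have h2 := hT2 f
  have hN : (0 : ℝ) ≤ ((realizations d).card : ℝ) := Nat.cast_nonneg _
  calc ((realizations d).card : ℝ) * (∑ G ∈ realizations d, f G ^ 2)
        - (∑ G ∈ realizations d, f G) ^ 2
      ≤ ((realizations d).card : ℝ) * ∑ U ∈ (univ : Finset (Fin n)).powersetCard 2,
              ∑ G ∈ realizations d, f G * Rop d U f G := h1
    _ ≤ ((realizations d).card : ℝ) * (c * switchEnergy d f) :=
        mul_le_mul_of_nonneg_left h2 hN
    _ = c * (realizations d).card * switchEnergy d f := by ring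

/-- **End-to-end**: the frozen statement S0453 from the three Ω-level interfaces (3B-Om), (DP-Om)
(ordered 4-tuples) and (T2-Om) with any constant `c ≤ n²`. -/
theorem result_of_3B_DP_T2 (n : ℕ) (hn : 4 ≤ n) (d : Fin n → ℕ)
    (hd : (realizations d).Nonempty) (c : ℝ) (hc : c ≤ (n : ℝ) ^ 2)
    (h3B : ∀ a b c : Fin n, a ≠ b → a ≠ c → b ≠ c → ∀ f : Finset (Edge n) → ℝ,
        ∑ G ∈ realizations d,
            f G * (Qavg d {a, b} f G + Qavg d {a, c} f G + Qavg d {b, c} f G)
          ≤ 2 * ∑ G ∈ realizations d, f G ^ 2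
            + ∑ G ∈ realizations d, f G * Qavg d {a, b, c} f G)
    (hDP : ∀ f : Finset (Edge n) → ℝ, 0 ≤ ∑ a : Fin n, ∑ b : Fin n, ∑ c : Fin n, ∑ e : Fin n,
        (if a ≠ b ∧ c ≠ e ∧ Disjoint ({a, b} : Finset (Fin n)) {c, e} then
          ∑ G ∈ realizations d, Rop d {a, b} f G * Rop d {c, e} f G else 0))
    (hT2 : ∀ f : Finset (Edge n) → ℝ,
        ∑ U ∈ (univ : Finset (Fin n)).powersetCard 2, ∑ G ∈ realizations d, f G * Rop d U f G
          ≤ c * switchEnergy d f) :
    (∃ t : ℕ, t ≤ 2 * n ^ 8 ∧ ∀ G ∈ realizations d,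
        tvDist (fun G' => (kernel n ^ t) G G') (unifOn (realizations d)) ≤ 1 / 4) ∧
      ∀ f : Finset (Edge n) → ℝ,
        ((realizations d).card : ℝ) * (∑ G ∈ realizations d, f G ^ 2) -
            (∑ G ∈ realizations d, f G) ^ 2 ≤
          24 * (n : ℝ) ^ 2 * (n.choose 4 : ℝ) * (realizations d).card *
            ∑ G ∈ realizations d,
              f G * (f G - ∑ G' ∈ realizations d, kernel n G G' * f G') :=
  Crest.Agent.Helper65.Switch.result_of_switchEnergy n hn d hd c hc
    (poincare_of_T2 d c (var_le_sum_Rop d h3B hDP) hT2)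

end Crest.Agent.Helper26.SW
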