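import Mathlib
import Crest.Agent.Helper26.SW.Assembly
import Crest.Agent.Helper10.S0453.DP

/-!
# S0453: end-to-end from the four Ω-level interface theorems (helper26)

`result_of_interfaces`: the frozen statement S0453 from
* (3B-Om) in the three-term `Qavg` form,
* helper10's `TPLGraph d f` and `J2Graph d f` for every `f`,
* (T2-Om) with a constant `c ≤ n²`.
-/

set_option autoImplicit false

namespace Crest.Agent.Helper26.SW

open Finset Crest.SwitchChain
open Crest.Agent.Helper65.Switch (offU Qavg Rop switchEnergy)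
open Crest.Agent.Helper10.S0453 (TPLGraph J2Graph)

variable {n : ℕ}

/-- `Var ≤ ⟨f, X f⟩` on `realizations d` from (3B-Om), (TPL-graph), (J2-graph). -/
theorem var_le_sum_Rop_of_TPL_J2 (d : Fin n → ℕ)
    (h3B : ∀ a b c : Fin n, a ≠ b → a ≠ c → b ≠ c → ∀ f : Finset (Edge n) → ℝ,
        ∑ G ∈ realizations d,
            f G * (Qavg d {a, b} f G + Qavg d {a, c} f G + Qavg d {b, c} f G)
          ≤ 2 * ∑ G ∈ realizations d, f G ^ 2
            + ∑ G ∈ realizations d, f G * Qavg d {a, b, c} f G)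
    (hTPL : ∀ f : Finset (Edge n) → ℝ, TPLGraph d f)
    (hJ2 : ∀ f : Finset (Edge n) → ℝ, J2Graph d f)
    (f : Finset (Edge n) → ℝ) :
    ((realizations d).card : ℝ) * ∑ G ∈ realizations d, f G ^ 2
        - (∑ G ∈ realizations d, f G) ^ 2
      ≤ ((realizations d).card : ℝ) * ∑ U ∈ (univ : Finset (Fin n)).powersetCard 2,
          ∑ G ∈ realizations d, f G * Rop d U f G :=
  var_le_sum_Rop_of_pairs d h3B
    (fun g => Crest.Agent.Helper10.S0453.dp_pairs d g (hTPL g) (hJ2 g)) f

/-- **S0453 from the interfaces** (3B-Om), (TPL-graph), (J2-graph), (T2-Om). -/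
theorem result_of_interfaces (n : ℕ) (hn : 4 ≤ n) (d : Fin n → ℕ)
    (hd : (realizations d).Nonempty) (c : ℝ) (hc : c ≤ (n : ℝ) ^ 2)
    (h3B : ∀ a b c : Fin n, a ≠ b → a ≠ c → b ≠ c → ∀ f : Finset (Edge n) → ℝ,
        ∑ G ∈ realizations d,
            f G * (Qavg d {a, b} f G + Qavg d {a, c} f G + Qavg d {b, c} f G)
          ≤ 2 * ∑ G ∈ realizations d, f G ^ 2
            + ∑ G ∈ realizations d, f G * Qavg d {a, b, c} f G)
    (hTPL : ∀ f : Finset (Edge n) → ℝ, TPLGraph d f)
    (hJ2 : ∀ f : Finset (Edge n) → ℝ, J2Graph d f)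
    (hT2 : ∀ f : Finset (Edge n) → ℝ,
        ∑ U ∈ (univ : Finset (Fin n)).powersetCard 2, ∑ G ∈ realizations d, f G * Rop d U f G
          ≤ c * switchEnergy d f) :
    (∃ t : ℕ, t ≤ 2 * n ^ 8 ∧ ∀ G ∈ realizations d,
        tvDist (fun G' => (kernel n ^ t) G G') (unifOn (realizations d)) ≤ 1 / 4) ∧
      ∀ f : Finset (Edge n) → ℝ,
        ((realizations d).card : ℝ) * (∑ G ∈ realizations d, f G ^ 2) -
            (∑ G ∈ realizations d, f G) ^ 2 ≤
          24 * (n : ℝ) ^ 2 * (n.choose 4 : ℝ) * (realizations d).card *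
            ∑ G ∈ realizations d,
              f G * (f G - ∑ G' ∈ realizations d, kernel n G G' * f G') :=
  Crest.Agent.Helper65.Switch.result_of_switchEnergy n hn d hd c hc
    (poincare_of_T2 d c (var_le_sum_Rop_of_TPL_J2 d h3B hTPL hJ2) hT2)

end Crest.Agent.Helper26.SW
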